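import Vale.Agent.P025.R2.H505.Finite

/-!
P025, row A-SMITH (helper505, helper720): statements.
`GraphExact` is defined in `Step.lean`, `fixMap` in `Finite.lean`.
-/

namespace P025H505

/-- Smith theory for finite `q`-groups -/
def SmithFinite : Prop :=
  ∀ (q : ℕ) [Fact q.Prime] (H V D E : Type) [Group H] [Finite H]
    [TopologicalSpace V] [CompactSpace V] [TotallySeparatedSpace V]
    [TopologicalSpace D] [CompactSpace D] [TotallySeparatedSpace D]
    [TopologicalSpace E] [CompactSpace E] [TotallySeparatedSpace E]
    [MulAction H V] [ContinuousConstSMul H V] [MulAction H D] [ContinuousConstSMul H D]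
    [MulAction H E] [ContinuousConstSMul H E]
    (v : E → V) (d : E → D) (hv : ∀ (h : H) (e : E), v (h • e) = h • v e)
    (hd : ∀ (h : H) (e : E), d (h • e) = h • d e), Continuous v → Continuous d →
    IsPGroup q H → GraphExact q v d →
    GraphExact q (fixMap v hv) (fixMap d hd)

/-- Smith theory for pro-`q` groups with vanishing connecting maps -/
def SmithPro : Prop :=
  ∀ (q : ℕ) [Fact q.Prime] (H V D E : Type) [Group H] [TopologicalSpace H]
    [IsTopologicalGroup H] [CompactSpace H] [TotallyDisconnectedSpace H]
    [TopologicalSpace V] [CompactSpace V] [TotallySeparatedSpace V]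
    [TopologicalSpace D] [CompactSpace D] [TotallySeparatedSpace D]
    [TopologicalSpace E] [CompactSpace E] [TotallySeparatedSpace E]
    [MulAction H V] [ContinuousSMul H V] [MulAction H D] [ContinuousSMul H D]
    [MulAction H E] [ContinuousSMul H E]
    (v : E → V) (d : E → D) (hv : ∀ (h : H) (e : E), v (h • e) = h • v e)
    (hd : ∀ (h : H) (e : E), d (h • e) = h • d e), Continuous v → Continuous d →
    (∀ U : Subgroup H, U.Normal → IsOpen (U : Set H) → ∃ n : ℕ, U.index = q ^ n) →
    GraphExact q v d →
    -- vanishing connecting maps for all open normal subgroups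
    (∀ U : Subgroup H, U.Normal → IsOpen (U : Set H) →
      ∀ (α : LocallyConstant V (ZMod q)) (β : LocallyConstant D (ZMod q)),
      (∀ u ∈ U, ∀ e, α (v (u • e)) - β (d (u • e)) = α (v e) - β (d e)) →
      (∀ u ∈ U, (∀ x, α (u • x) = α x) ∧ ∀ y, β (u • y) = β y)) →
    GraphExact q (fixMap v hv) (fixMap d hd)

end P025H505
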