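import Vale.Agent.P025.R2.H281.Tame

/-!
P025, the condition on values used for uniqueness of fixed edges.
-/

namespace P025H505

/-- the value group of the field fixed by `H` is not divisible by `q` -/
def ValCond {k Ω : Type*} [Field k] [NormedField Ω] [Algebra k Ω] (q : ℕ)
    (H : Subgroup Gal(Ω/k)) : Prop :=
  ∃ π : Ω, (∀ s ∈ H, s π = π) ∧ π ≠ 0 ∧ ‖π‖ < 1 ∧ ∀ x : Ω, (∀ s ∈ H, s x = x) → ‖x‖ ^ q ≠ ‖π‖

end P025H505
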