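import Vale.Agent.P025.R2.H505.Exist
import Vale.Agent.P025.R2.H281.Wild
import Vale.Agent.P025.R2.H505.ValCond

/-!
P025, row A-EXIST for the Galois group of a valued field (inertia and wild inertia of H281).
-/

namespace P025H505

open Finset Topology P025H970 P025H281

variable {k Ω : Type*} [Field k] [NormedField Ω] [IsUltrametricDist Ω] [Algebra k Ω]

variable {V D E : Type*} [IsGalois k Ω]
  [TopologicalSpace V] [CompactSpace V] [T2Space V] [TotallyDisconnectedSpace V]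
  [TopologicalSpace D] [CompactSpace D] [T2Space D] [TotallyDisconnectedSpace D]
  [TopologicalSpace E] [CompactSpace E] [T2Space E] [TotallyDisconnectedSpace E]
  [MulAction Gal(Ω/k) V] [ContinuousSMul Gal(Ω/k) V] [MulAction Gal(Ω/k) D]
  [ContinuousSMul Gal(Ω/k) D] [MulAction Gal(Ω/k) E] [ContinuousSMul Gal(Ω/k) E]

/-- A-EXIST for a valued field `k` -/
theorem exists_fixed_gal {l p : ℕ} [hl : Fact l.Prime] [hp : Fact p.Prime]
    (hG : ∀ (σ : Gal(Ω/k)) (x : Ω), ‖σ x‖ = ‖x‖) (hpn : ‖(p : Ω)‖ < 1)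
    -- from A-GRP
    (hTame : ∀ S : Subgroup Gal(Ω/k), IsOpen (S : Set Gal(Ω/k)) → ∃ P : Subgroup Gal(Ω/k),
      IsSyl l (inertia k Ω ⊓ S) P ∧
      ∃ φ : Gal(Ω/k), ∃ Q : ℕ, 1 < Q ∧ ∀ x ∈ P, φ * x * φ⁻¹ = x ^ Q)
    (hVal : ∀ (q : ℕ) [Fact q.Prime] (S P : Subgroup Gal(Ω/k)), IsOpen (S : Set Gal(Ω/k)) →
      IsSyl q (inertia k Ω ⊓ S) P → ValCond q P)
    -- from A-GRAPH
    {v : E → V} {d : E → D} (hvc : Continuous v) (hdc : Continuous d)
    (hv : ∀ (g : Gal(Ω/k)) (e : E), v (g • e) = g • v e)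
    (hd : ∀ (g : Gal(Ω/k)) (e : E), d (g • e) = g • d e) (hexl : GraphExact l v d)
    (hexp : GraphExact p v d)
    -- from A-UNIQ
    (hU : ∀ (q : ℕ) [Fact q.Prime] (H : Subgroup Gal(Ω/k)), IsClosed (H : Set Gal(Ω/k)) →
      IsPro q H → ValCond q H → ∀ e e' : E, (∀ s : H, s • e = e) → (∀ s : H, s • e' = e') →
        e = e') :
    ((∃ x : V, ∀ g : Gal(Ω/k), g • x = x) ∨ (∃ y : D, ∀ g : Gal(Ω/k), g • y = y)) ∧
    (∀ x x' : V, (∀ s : wild k Ω, s • x = x) → (∀ s : wild k Ω, s • x' = x') → x = x') ∧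
    (∀ y y' : D, (∀ s : wild k Ω, s • y = y) → (∀ s : wild k Ω, s • y' = y') → y = y') ∧
    (∀ (x : V) (y : D), (∀ s : wild k Ω, s • x = x) → (∀ s : wild k Ω, s • y = y) →
      ∃ e : E, v e = x ∧ d e = y ∧ ∀ g : Gal(Ω/k), g • e = e) := by
  have hIn := inertia_normal (k := k) (Ω := Ω) hG
  have hWn := wild_normal (k := k) (Ω := Ω) hG
  have hW := wild_closed (k := k) (Ω := Ω)
  have hSylW : IsSyl p (inertia k Ω ⊓ ⊤) (wild k Ω) := by
    rw [inf_top_eq]; exact isSyl_wild hpn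
  have := exists_fixed (l := l) (p := p) hvc hdc hv hd hexl hexp (inertia k Ω)
    inertia_closed (fun S hS => by
      obtain ⟨P, hP, hφ⟩ := hTame S hS
      exact ⟨P, hP, hφ, hU l P hP.closed hP.pro (hVal l S P hS hP)⟩)
    (wild k Ω) hW (wild_pro hpn) (hU p _ hW (wild_pro hpn) (hVal p ⊤ _ isOpen_univ hSylW))
  exact this.2

end P025H505
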