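import Vale.Agent.P025.R2.H505.Obst
import Vale.Agent.P025.R2.H970.SmithPro
import Vale.Agent.P025.R2.H281.SylEx

/-!
P025, row A-EXIST, abstract part: a profinite group `G` with the tame/wild structure of the Galois
group of a local field, acting on a profinite tree in which the edges fixed by Sylow subgroups of
inertia and by wild inertia are unique, fixes a vertex.
-/

namespace P025H505

open Finset Topology P025H970 P025H281

set_option linter.unusedSectionVars false

section sep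

variable {X : Type*} [TopologicalSpace X] [CompactSpace X] [T2Space X] [TotallyDisconnectedSpace X]

theorem exists_sep (q : ℕ) {x y : X} (h : x ≠ y) :
    ∃ f : X → ZMod q, IsLocallyConstant f ∧ f x = 1 ∧ f y = 0 := by
  classical
  have hO : IsOpen ({y}ᶜ : Set X) := isClosed_singleton.isOpen_compl
  obtain ⟨U, hU, hxU, hUy⟩ := compact_exists_isClopen_in_isOpen hO (show x ∈ ({y}ᶜ : Set X) from h)
  refine ⟨LocallyConstant.charFn (ZMod q) hU, LocallyConstant.isLocallyConstant _, ?_, ?_⟩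
  · rw [LocallyConstant.coe_charFn, Set.indicator_of_mem hxU]; rfl
  · rw [LocallyConstant.coe_charFn, Set.indicator_of_notMem (fun hy => hUy hy rfl)]

end sep

section graph

variable {q : ℕ} [hq : Fact q.Prime] {P V D E : Type*} [Group P]
  [TopologicalSpace V] [CompactSpace V] [T2Space V] [TotallyDisconnectedSpace V]
  [TopologicalSpace D] [CompactSpace D] [T2Space D] [TotallyDisconnectedSpace D]
  [MulAction P V] [MulAction P D] [MulAction P E]

/-- the fixed graph of `P` is nonempty and connected (conclusion of `smith_pro`) -/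
def FixConn (q : ℕ) (P : Type*) {V D E : Type*} [Group P] [TopologicalSpace V] [TopologicalSpace D]
    [MulAction P V] [MulAction P D] [MulAction P E] (v : E → V) (d : E → D) : Prop :=
  ((∃ x : V, ∀ g : P, g • x = x) ∨ (∃ y : D, ∀ g : P, g • y = y)) ∧
    ∀ (f : V → ZMod q) (g : D → ZMod q), IsLocallyConstant f → IsLocallyConstant g →
      (∀ e : E, (∀ s : P, s • e = e) → f (v e) = g (d e)) →
      ∃ c, (∀ x, (∀ s : P, s • x = x) → f x = c) ∧ ∀ y, (∀ s : P, s • y = y) → g y = c

/-- one vertex or one edge -/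
theorem FixConn.unique_left {v : E → V} {d : E → D} (h : FixConn q P v d)
    (hv : ∀ (g : P) e, v (g • e) = g • v e)
    (huniq : ∀ e e' : E, (∀ s : P, s • e = e) → (∀ s : P, s • e' = e') → e = e')
    {x x' : V} (hx : ∀ g : P, g • x = x) (hx' : ∀ g : P, g • x' = x') : x = x' := by
  by_cases he : ∃ e : E, ∀ s : P, s • e = e
  · obtain ⟨e, he⟩ := he
    have key : ∀ z : V, (∀ g : P, g • z = z) → z = v e := by
      intro z hz
      by_contra hne
      obtain ⟨f, hf, h1, h0⟩ := exists_sep q hne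
      obtain ⟨c, hc1, -⟩ := h.2 f (fun _ => 0) hf (IsLocallyConstant.const 0) (fun e' he' => by
        rw [huniq e' e he' he]; exact h0)
      have a := hc1 z hz
      have b := hc1 (v e) (fun s => by rw [← hv, he])
      rw [h1] at a
      rw [h0] at b
      exact one_ne_zero (a.trans b.symm)
    rw [key x hx, key x' hx']
  · by_contra hne
    obtain ⟨f, hf, h1, h0⟩ := exists_sep q hne
    obtain ⟨c, hc1, -⟩ := h.2 f (fun _ => 0) hf (IsLocallyConstant.const 0)
      (fun e' he' => absurd ⟨e', he'⟩ he)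
    have a := hc1 x hx
    have b := hc1 x' hx'
    rw [h1] at a
    rw [h0] at b
    exact one_ne_zero (a.trans b.symm)

theorem FixConn.symm {v : E → V} {d : E → D} (h : FixConn q P v d) : FixConn q P d v := by
  refine ⟨h.1.symm, fun f g hf hg hfg => ?_⟩
  obtain ⟨c, h1, h2⟩ := h.2 g f hg hf (fun e he => (hfg e he).symm)
  exact ⟨c, h2, h1⟩

theorem FixConn.unique_right {v : E → V} {d : E → D} (h : FixConn q P v d)
    (hd : ∀ (g : P) e, d (g • e) = g • d e)
    (huniq : ∀ e e' : E, (∀ s : P, s • e = e) → (∀ s : P, s • e' = e') → e = e')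
    {y y' : D} (hy : ∀ g : P, g • y = y) (hy' : ∀ g : P, g • y' = y') : y = y' :=
  h.symm.unique_left hd huniq hy hy'

/-- a fixed vertex on each side gives a fixed edge -/
theorem FixConn.exists_edge {v : E → V} {d : E → D} (h : FixConn q P v d)
    {x : V} {y : D} (hx : ∀ g : P, g • x = x) (hy : ∀ g : P, g • y = y) :
    ∃ e : E, ∀ s : P, s • e = e := by
  by_contra he
  obtain ⟨c, hc1, hc2⟩ := h.2 (fun _ => 1) (fun _ => 0) (IsLocallyConstant.const 1)
    (IsLocallyConstant.const 0) (fun e' he' => absurd ⟨e', he'⟩ he)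
  exact one_ne_zero ((hc1 x hx).trans (hc2 y hy).symm)

end graph

section main

variable {G V D E : Type*} [Group G] [TopologicalSpace G]
  [IsTopologicalGroup G] [CompactSpace G] [TotallyDisconnectedSpace G]
  [TopologicalSpace V] [CompactSpace V] [T2Space V] [TotallyDisconnectedSpace V]
  [TopologicalSpace D] [CompactSpace D] [T2Space D] [TotallyDisconnectedSpace D]
  [TopologicalSpace E] [CompactSpace E] [T2Space E] [TotallyDisconnectedSpace E]
  [MulAction G V] [ContinuousSMul G V] [MulAction G D] [ContinuousSMul G D]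
  [MulAction G E] [ContinuousSMul G E]

/-- all obstruction homomorphisms with coefficients `F_q` of elements of `P` vanish -/
def Van (q : ℕ) (P : Subgroup G) (v : E → V) (d : E → D) : Prop :=
  ∀ (α : LocallyConstant V (ZMod q)) (β : LocallyConstant D (ZMod q)) (g : G), g ∈ P →
    EInv v d α β g → (∀ x, α (g • x) = α x) ∧ ∀ y, β (g • y) = β y

/-- Smith theory for a closed pro-`q` subgroup -/
theorem fixConn_of_van {q : ℕ} [hq : Fact q.Prime] {v : E → V} {d : E → D} (hvc : Continuous v)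
    (hdc : Continuous d) (hv : ∀ (g : G) (e : E), v (g • e) = g • v e)
    (hd : ∀ (g : G) (e : E), d (g • e) = g • d e) (hex : GraphExact q v d)
    (P : Subgroup G) (hP : IsClosed (P : Set G)) (hpro : IsPro q P) (hvan : Van q P v d) :
    FixConn q P v d := by
  have : CompactSpace P := isCompact_iff_compactSpace.1 hP.isCompact
  refine smith_pro q hvc hdc (fun g e => hv g e) (fun g e => hd g e) ?_
    {U : Subgroup P | U.Normal ∧ IsOpen (U : Set P)} ?_ ?_ ?_ ?_
  · refine ⟨hex.nonempty, fun f g hf hg hfg => ?_⟩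
    exact hex.const ⟨f, hf⟩ ⟨g, hg⟩ hfg
  · intro O hO
    obtain ⟨O', hO', hO'o, h1⟩ := mem_nhds_iff.1 hO
    obtain ⟨H, hH⟩ := ProfiniteGrp.exist_openNormalSubgroup_sub_open_nhds_of_one hO'o h1
    exact ⟨H.toSubgroup, ⟨H.isNormal', H.isOpen'⟩, hH.trans hO'⟩
  · rintro U ⟨h1, h2⟩
    exact ⟨h1, U.isClosed_of_isOpen h2, h2.mem_nhds U.one_mem⟩
  · rintro U ⟨h1, h2⟩
    exact hpro.index_eq U h2
  · rintro U ⟨h1, h2⟩ h hh hU
    obtain ⟨α, β, hαβ⟩ := hex.surj ⟨h, hh⟩
    have hαβ' : ∀ e, h e = α (v e) - β (d e) := hαβ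
    have key : ∀ u ∈ U, (∀ x, α (u • x) = α x) ∧ ∀ y, β (u • y) = β y := fun u hu =>
      hvan α β u u.2 (fun e => by rw [← hαβ', ← hαβ']; exact hU u hu e)
    exact ⟨α, β, α.isLocallyConstant, β.isLocallyConstant, fun u hu => (key u hu).1,
      fun u hu => (key u hu).2, hαβ'⟩

/-- a subgroup `P` normalised by `φ` with weight `Q > 1` has no obstruction -/
theorem van_of_weight {l : ℕ} [hl : Fact l.Prime] {v : E → V} {d : E → D} (hvc : Continuous v)
    (hdc : Continuous d) (hv : ∀ (g : G) (e : E), v (g • e) = g • v e)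
    (hd : ∀ (g : G) (e : E), d (g • e) = g • d e) (hex : GraphExact l v d)
    (P : Subgroup G) {φ : G} {Q : ℕ} (hQ : 1 < Q) (hrel : ∀ u ∈ P, φ * u * φ⁻¹ = u ^ Q) :
    Van l P v d :=
  fun _ _ g hg hinv => weight hvc hdc hex hv hd hQ (hrel g hg) hinv

/-- an element normalising `P` maps points fixed by `P` to points fixed by `P` -/
theorem fixed_smul {X : Type*} [MulAction G X] {P : Subgroup G} {η : G}
    (hη : η ∈ Subgroup.normalizer (P : Set G)) {x : X} (hx : ∀ g : P, g • x = x) :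
    ∀ g : P, g • (η • x) = η • x := by
  rintro ⟨g, hg⟩
  have h1 : η⁻¹ * g * η ∈ P := by
    have := (Subgroup.mem_normalizer_iff.1 ((Subgroup.normalizer (P : Set G)).inv_mem hη) g).1 hg
    simpa using this
  have h2 : (η⁻¹ * g * η) • x = x := hx ⟨_, h1⟩
  change g • η • x = η • x
  rw [mul_smul, mul_smul, inv_smul_eq_iff] at h2
  exact h2

/-- an element normalising `P` fixes a vertex when the fixed edge of `P` is unique -/
theorem fixes_vertex {q : ℕ} [hq : Fact q.Prime] {v : E → V} {d : E → D}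
    (hv : ∀ (g : G) (e : E), v (g • e) = g • v e)
    (hd : ∀ (g : G) (e : E), d (g • e) = g • d e) {P : Subgroup G} (hcon : FixConn q P v d)
    (huniq : ∀ e e' : E, (∀ s : P, s • e = e) → (∀ s : P, s • e' = e') → e = e')
    {η : G} (hη : η ∈ Subgroup.normalizer (P : Set G)) :
    (∃ x : V, η • x = x) ∨ (∃ y : D, η • y = y) := by
  rcases hcon.1 with ⟨x, hx⟩ | ⟨y, hy⟩
  · exact Or.inl ⟨x, hcon.unique_left (fun g e => hv g e) huniq (fixed_smul hη hx) hx⟩
  · exact Or.inr ⟨y, hcon.unique_right (fun g e => hd g e) huniq (fixed_smul hη hy) hy⟩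

/-- the kernel of an obstruction homomorphism on a subgroup, as a subgroup of `G` -/
def kerObst {n : ℕ} (α : LocallyConstant V (ZMod n)) (β : LocallyConstant D (ZMod n))
    (I : Subgroup G) : Subgroup G where
  carrier := {x | x ∈ I ∧ IsObst α β x 0}
  one_mem' := ⟨I.one_mem, IsObst.one⟩
  mul_mem' := fun ha hb => ⟨I.mul_mem ha.1 hb.1, by simpa using ha.2.mul hb.2⟩
  inv_mem' := fun ha => ⟨I.inv_mem ha.1, by simpa using ha.2.inv⟩

theorem isClosed_kerObst {n : ℕ} (α : LocallyConstant V (ZMod n))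
    (β : LocallyConstant D (ZMod n)) (I : Subgroup G) (hI : IsClosed (I : Set G)) :
    IsClosed (kerObst α β I : Set G) := by
  have h1 : (kerObst α β I : Set G) = (I : Set G) ∩ ((⋂ x : V, {g : G | α (g • x) = α x + 0}) ∩
      ⋂ y : D, {g : G | β (g • y) = β y + 0}) := by
    ext g
    simp only [Set.mem_inter_iff, Set.mem_iInter]
    exact Iff.rfl
  rw [h1]
  refine hI.inter (IsClosed.inter (isClosed_iInter fun x => ?_) (isClosed_iInter fun y => ?_))
  · have hc : Continuous (fun g : G => g • x) := continuous_id.smul continuous_const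
    exact (α.isLocallyConstant.isClopen_fiber _).isClosed.preimage hc
  · have hc : Continuous (fun g : G => g • y) := continuous_id.smul continuous_const
    exact (β.isLocallyConstant.isClopen_fiber _).isClosed.preimage hc

/-- FRATTINI: all obstruction homomorphisms with coefficients `F_p` vanish -/
theorem van_frattini {l p : ℕ} [hl : Fact l.Prime] [hp : Fact p.Prime] {v : E → V} {d : E → D}
    (hvc : Continuous v) (hdc : Continuous d)
    (hv : ∀ (g : G) (e : E), v (g • e) = g • v e)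
    (hd : ∀ (g : G) (e : E), d (g • e) = g • d e) (hexl : GraphExact l v d)
    (hexp : GraphExact p v d) (I : Subgroup G) [hIn : I.Normal] (hI : IsClosed (I : Set G))
    (hSyl : ∀ S : Subgroup G, IsOpen (S : Set G) → ∃ P : Subgroup G, IsSyl l (I ⊓ S) P ∧
      (∃ φ : G, ∃ Q : ℕ, 1 < Q ∧ ∀ x ∈ P, φ * x * φ⁻¹ = x ^ Q) ∧
      ∀ e e' : E, (∀ s : P, s • e = e) → (∀ s : P, s • e' = e') → e = e') :
    Van p (⊤ : Subgroup G) v d := by
  intro α β σ _ hσ
  let e0 : LocallyConstant E (ZMod p) := α.comap ⟨v, hvc⟩ - β.comap ⟨d, hdc⟩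
  have he0 : ∀ e, e0 e = α (v e) - β (d e) := fun e => rfl
  obtain ⟨S0, hS0, hS0e⟩ := isOpen_stab (G := G) e0
  let S : Subgroup G := stabE G v d α β
  have hS : IsOpen (S : Set G) := Subgroup.isOpen_mono (H₁ := S0) (fun g hg e => hS0e g hg e) hS0
  have hσS : σ ∈ S := hσ
  obtain ⟨P, hP, ⟨φ, Q, hQ, hrel⟩, huniq⟩ := hSyl S hS
  have hcon : FixConn l P v d := fixConn_of_van hvc hdc hv hd hexl P hP.closed hP.pro
    (van_of_weight hvc hdc hv hd hexl P hQ hrel)
  have hcl : IsClosed ((I ⊓ S : Subgroup G) : Set G) := by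
    rw [Subgroup.coe_inf]
    exact hI.inter (S.isClosed_of_isOpen hS)
  -- an element of `S` fixing a vertex has no obstruction
  have hfix : ∀ g : G, g ∈ S → ((∃ x : V, g • x = x) ∨ (∃ y : D, g • y = y)) →
      IsObst α β g 0 := by
    intro g hg h
    obtain ⟨c, hc⟩ := exists_obst hexp hv hd (g := g) (α := α) (β := β) hg
    rcases h with ⟨x, hx⟩ | ⟨y, hy⟩
    · rwa [hc.eq_zero_of_fix_left hx] at hc
    · rwa [hc.eq_zero_of_fix_right hy] at hc
  let K0 : Subgroup G := kerObst α β (I ⊓ S)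
  have hK0c : IsClosed (K0 : Set G) := isClosed_kerObst α β _ hcl
  have hPK : P ≤ K0 := fun g hg => ⟨hP.le hg, hfix g (hP.le hg).2 (by
    rcases hcon.1 with ⟨x, hx⟩ | ⟨y, hy⟩
    · exact Or.inl ⟨x, hx ⟨g, hg⟩⟩
    · exact Or.inr ⟨y, hy ⟨g, hg⟩⟩)⟩
  have hPs : IsSyl l K0 P := hP.of_le hPK (fun g hg => hg.1)
  obtain ⟨cσ, hcσ⟩ := exists_obst hexp hv hd (g := σ) (α := α) (β := β) hσ
  have hconj : ∀ x, x ∈ K0 → σ⁻¹ * x * σ ∈ K0 := by
    intro x hx
    refine ⟨⟨?_, ?_⟩, ?_⟩
    · have := hIn.conj_mem x hx.1.1 σ⁻¹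
      simpa using this
    · exact S.mul_mem (S.mul_mem (S.inv_mem hσS) hx.1.2) hσS
    · have := (hcσ.inv.mul hx.2).mul hcσ
      simpa using this
  have hconj' : ∀ x, x ∈ K0 → σ * x * σ⁻¹ ∈ K0 := by
    intro x hx
    refine ⟨⟨?_, ?_⟩, ?_⟩
    · exact hIn.conj_mem x hx.1.1 σ
    · exact S.mul_mem (S.mul_mem hσS hx.1.2) (S.inv_mem hσS)
    · have := (hcσ.mul hx.2).mul hcσ.inv
      simpa using this
  obtain ⟨y, hy, hyσ⟩ := hPs.frattini hK0c (g := σ) (fun x => ⟨hconj x, fun h => by
    have := hconj' _ h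
    have e : σ * (σ⁻¹ * x * σ) * σ⁻¹ = x := by group
    rwa [e] at this⟩)
  have h1 := hfix (y * σ) (S.mul_mem hy.1.2 hσS)
    (fixes_vertex hv hd hcon huniq hyσ)
  have h2 : IsObst α β (y * σ) (0 + cσ) := hy.2.mul hcσ
  have h3 := IsObst.unique hexp.nonempty h1 h2
  rw [zero_add] at h3
  rw [← h3] at hcσ
  exact ⟨fun x => by simpa using hcσ.1 x, fun x => by simpa using hcσ.2 x⟩

/-- A-EXIST, abstract form -/
theorem exists_fixed {l p : ℕ} [hl : Fact l.Prime] [hp : Fact p.Prime] {v : E → V} {d : E → D}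
    (hvc : Continuous v) (hdc : Continuous d)
    (hv : ∀ (g : G) (e : E), v (g • e) = g • v e)
    (hd : ∀ (g : G) (e : E), d (g • e) = g • d e) (hexl : GraphExact l v d)
    (hexp : GraphExact p v d) (I : Subgroup G) [hIn : I.Normal] (hI : IsClosed (I : Set G))
    (hSyl : ∀ S : Subgroup G, IsOpen (S : Set G) → ∃ P : Subgroup G, IsSyl l (I ⊓ S) P ∧
      (∃ φ : G, ∃ Q : ℕ, 1 < Q ∧ ∀ x ∈ P, φ * x * φ⁻¹ = x ^ Q) ∧
      ∀ e e' : E, (∀ s : P, s • e = e) → (∀ s : P, s • e' = e') → e = e')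
    (W : Subgroup G) [hWn : W.Normal] (hW : IsClosed (W : Set G)) (hWp : IsPro p W)
    (hWu : ∀ e e' : E, (∀ s : W, s • e = e) → (∀ s : W, s • e' = e') → e = e') :
    FixConn p W v d ∧
    ((∃ x : V, ∀ g : G, g • x = x) ∨ (∃ y : D, ∀ g : G, g • y = y)) ∧
    (∀ x x' : V, (∀ s : W, s • x = x) → (∀ s : W, s • x' = x') → x = x') ∧
    (∀ y y' : D, (∀ s : W, s • y = y) → (∀ s : W, s • y' = y') → y = y') ∧
    (∀ (x : V) (y : D), (∀ s : W, s • x = x) → (∀ s : W, s • y = y) →
      ∃ e : E, v e = x ∧ d e = y ∧ ∀ g : G, g • e = e) := by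
  have hvan := van_frattini hvc hdc hv hd hexl hexp I hI hSyl
  have hcon : FixConn p W v d := fixConn_of_van hvc hdc hv hd hexp W hW hWp
    (fun α β g _ h => hvan α β g trivial h)
  have hnorm : ∀ g : G, g ∈ Subgroup.normalizer (W : Set G) := fun g => by
    rw [Subgroup.normalizer_eq_top W]; trivial
  have huV : ∀ x x' : V, (∀ s : W, s • x = x) → (∀ s : W, s • x' = x') → x = x' :=
    fun x x' hx hx' => hcon.unique_left (fun g e => hv g e) hWu hx hx'
  have huD : ∀ y y' : D, (∀ s : W, s • y = y) → (∀ s : W, s • y' = y') → y = y' :=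
    fun y y' hy hy' => hcon.unique_right (fun g e => hd g e) hWu hy hy'
  refine ⟨hcon, ?_, huV, huD, ?_⟩
  · rcases hcon.1 with ⟨x, hx⟩ | ⟨y, hy⟩
    · exact Or.inl ⟨x, fun g => huV _ _ (fixed_smul (hnorm g) hx) hx⟩
    · exact Or.inr ⟨y, fun g => huD _ _ (fixed_smul (hnorm g) hy) hy⟩
  · intro x y hx hy
    obtain ⟨e, he⟩ := hcon.exists_edge hx hy
    refine ⟨e, huV _ _ (fun s => by
      change (s : G) • v e = v e
      rw [← hv]; exact congrArg v (he s)) hx, huD _ _ (fun s => by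
      change (s : G) • d e = d e
      rw [← hd]; exact congrArg d (he s)) hy, fun g => hWu _ _ (fixed_smul (hnorm g) he) he⟩

end main

end P025H505
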