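import Vale.Agent.P025.R2.H505.ExistG
import Vale.Agent.P025.R2.H720.Tree

/-!
P025, row A-EXIST, concrete form: the Galois group of a valued field fixes a vertex of the tree
`V_T, D_T, E_T` of `N`, and wild inertia fixes at most one vertex on each side.
-/

namespace P025H505

open Topology P025H970 P025H281 P025H720 P025H544 P025H373

universe u v w x

section

variable {k : Type x} (C : Type u) (kb : Type v) (N : Type w)
  [Field k] [NormedField kb] [IsUltrametricDist kb] [IsAlgClosed kb] [Algebra k kb]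
  [IsGalois k kb]
  [NontriviallyNormedField C] [IsUltrametricDist C] [CompleteSpace C] [IsAlgClosed C] [CharZero C]
  [Field N] [Algebra kb C] [Algebra kb N] [TrdegOne kb N]
  [MulSemiringAction Gal(kb/k) C] [MulSemiringAction Gal(kb/k) N]
  [NormAct Gal(kb/k) C] [OpenStab Gal(kb/k) N] [Equi Gal(kb/k) kb C] [Equi Gal(kb/k) kb N]
  (T : N) [Fact (Transcendental kb T)] [FixedT Gal(kb/k) T]

/-- A-EXIST, concrete form -/
theorem exists_fixed_K {l p : ℕ} [hl : Fact l.Prime] [hp : Fact p.Prime]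
    (hG : ∀ (σ : Gal(kb/k)) (x : kb), ‖σ x‖ = ‖x‖) (hpn : ‖(p : kb)‖ < 1)
    -- from A-GRP
    (hTame : ∀ S : Subgroup Gal(kb/k), IsOpen (S : Set Gal(kb/k)) → ∃ P : Subgroup Gal(kb/k),
      IsSyl l (inertia k kb ⊓ S) P ∧
      ∃ φ : Gal(kb/k), ∃ Q : ℕ, 1 < Q ∧ ∀ x ∈ P, φ * x * φ⁻¹ = x ^ Q)
    (hVal : ∀ (q : ℕ) [Fact q.Prime] (S P : Subgroup Gal(kb/k)), IsOpen (S : Set Gal(kb/k)) →
      IsSyl q (inertia k kb ⊓ S) P → ValCond q P)
    -- from A-GRAPH
    (hcl : ∀ (n : ℕ) [NeZero n], TopClosed (RatFunc C) (F1 C) (F2 C) (NCT C kb N T) n)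
    -- from A-UNIQ
    (hU : ∀ (q : ℕ) [Fact q.Prime] (H : Subgroup Gal(kb/k)), IsClosed (H : Set Gal(kb/k)) →
      IsPro q H → ValCond q H → ∀ e e' : ET C kb N T, (∀ s : H, s • e = e) →
        (∀ s : H, s • e' = e') → e = e') :
    ((∃ x : VT C kb N T, ∀ g : Gal(kb/k), g • x = x) ∨
      (∃ y : DT C kb N T, ∀ g : Gal(kb/k), g • y = y)) ∧
    (∀ x x' : VT C kb N T, (∀ s : wild k kb, s • x = x) → (∀ s : wild k kb, s • x' = x') →
      x = x') ∧
    (∀ y y' : DT C kb N T, (∀ s : wild k kb, s • y = y) → (∀ s : wild k kb, s • y' = y') →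
      y = y') ∧
    (∀ (x : VT C kb N T) (y : DT C kb N T), (∀ s : wild k kb, s • x = x) →
      (∀ s : wild k kb, s • y = y) →
      ∃ e : ET C kb N T, toV C kb N T e = x ∧ toD C kb N T e = y ∧
        ∀ g : Gal(kb/k), g • e = e) := by
  have : NeZero l := ⟨hl.out.ne_zero⟩
  have : NeZero p := ⟨hp.out.ne_zero⟩
  exact exists_fixed_gal (l := l) (p := p) hG hpn hTame hVal (continuous_toV C kb N T)
    (continuous_toD C kb N T) (toV_smul Gal(kb/k) C kb N T) (toD_smul Gal(kb/k) C kb N T)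
    (graphExact_NCT C kb N T l (hcl l)) (graphExact_NCT C kb N T p (hcl p)) hU

end

end P025H505
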