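import Vale.Agent.P025.R2.H505.SecK
import Vale.Agent.P025.R2.H855.Final2

/-!
P025: from statements about the abstract data `(k', kb, N)` with an action of `Gal(kb/k')` (the
output of the tree side) to the main input of H855.
-/

namespace P025H505

open P025H641 P025H720 P025H722 P025H206 P025H855 IntermediateField

universe u v w

/-- the output of the tree side for abstract arithmetic data: partial characters on finite sets of
fixed elements of `N`, and uniqueness of stable valuation rings over `kb` -/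
structure TreeOutput (p : ℕ) [Fact p.Prime] (k' : Type u) (kb : Type v) (N : Type w) [Field k']
    [Algebra ℚ_[p] k'] [Field kb] [Algebra k' kb] [Field N] [Algebra kb N] [Algebra k' N]
    [MulSemiringAction Gal(kb/k') N] : Prop where
  /-- partial characters -/
  chars : ∀ ζ : k', IsPrimitiveRoot ζ p → ∀ S : Finset N,
    (∀ f ∈ S, ∀ σ : Gal(kb/k'), σ • f = f) → ∃ χ : N → Cl p k', PartChar p k' S χ
  /-- uniqueness -/
  uniq : ∀ W₁ W₂ : ValuationSubring N, (∀ c : kb, algebraMap kb N c ∈ W₁) →
    (∀ c : kb, algebraMap kb N c ∈ W₂) → W₁ ≠ ⊤ → W₂ ≠ ⊤ →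
    (∀ σ : Gal(kb/k'), ∀ x ∈ W₁, σ • x ∈ W₁) → (∀ σ : Gal(kb/k'), ∀ x ∈ W₂, σ • x ∈ W₂) →
      W₁ = W₂

section

variable {p : ℕ} [Fact p.Prime] {k : Type u} {K : Type v} [Field k] [CharZero k] [Field K]
  [Algebra k K] [Algebra ℚ_[p] k]

attribute [local instance 10] algK

/-- a valuation ring containing the constants `k` contains all constants -/
theorem const_mem_of (W : ValuationSubring (maxUnr k K))
    (h : ∀ c : k, algebraMap k (maxUnr k K) c ∈ W) (c : constClosure k K) :
    algebraMap (constClosure k K) (maxUnr k K) c ∈ W := by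
  have hc : IsIntegral k c := Algebra.IsIntegral.isIntegral c
  have h1 : IsIntegral k (algebraMap (constClosure k K) (maxUnr k K) c) := hc.algebraMap
  let f : k →+* W := (algebraMap k (maxUnr k K)).codRestrict W.toSubring h
  have h2 : IsIntegral W (algebraMap (constClosure k K) (maxUnr k K) c) := by
    obtain ⟨P, hP, hP0⟩ := h1
    refine ⟨P.map f, hP.map f, ?_⟩
    rw [Polynomial.eval₂_map]
    exact hP0
  obtain ⟨y, hy⟩ := IsIntegrallyClosed.isIntegral_iff.1 h2
  rw [← hy]
  exact y.2

/-- **Bridge** to the main input of H855. -/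
theorem mainInput_of_tree (H : ∀ (s : Section k K) (k' : Type u) [Field k'] [Algebra k k']
    [FiniteDimensional k k'] [Algebra ℚ_[p] k'] [IsScalarTower ℚ_[p] k k']
    [Algebra k' (maxUnr k K)] [IsScalarTower k k' (maxUnr k K)],
    @TreeOutput p _ k' (constClosure k K) (maxUnr k K) _ _ _ (algK k K k') _ _ _
      (secActionK k' s.toHom)) : MainInput p k K := by
  intro s k' _ _ _ _ _ _ _ ζ hζ
  have hs := s.isSection
  have h := H s k'
  let _ := secActionK k' s.toHom
  refine ⟨fun S hS => h.chars ζ hζ S fun f hf σ => hS f hf _ (resGal_mem k' hs σ), ?_⟩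
  intro W₁ W₂ h1 h2 h3 h4 h5 h6
  exact h.uniq W₁ W₂ (const_mem_of W₁ h1) (const_mem_of W₂ h2) h3 h4
    (fun σ x hx => h5 _ (resGal_mem k' hs σ) x hx) (fun σ x hx => h6 _ (resGal_mem k' hs σ) x hx)

end

end P025H505
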