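import Vale.Agent.P025.R2.H505.DPlace
import Vale.Agent.P025.R2.H720.Tree

/-!
P025, A-END, item (D): partial characters from a fixed `D`-vertex. The relation `Cont d W` (the
vertex `d` contains the pole `W` of `T`) is abstract here; its properties are hypotheses.
-/

namespace P025H505

open P025H641 P025H855 P025H720 P025H544 P025H373 IntermediateField
open scoped Pointwise

universe u v w x

section

theorem partChar_mono {p : ℕ} [Fact p.Prime] {k' : Type u} [Field k'] [Algebra ℚ_[p] k']
    {M : Type v} [Field M] [Algebra k' M] {S S' : Finset M} (hS : S ⊆ S') {χ : M → Cl p k'}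
    (h : PartChar p k' S' χ) : PartChar p k' S χ where
  mul f hf g hg := h.mul f (hS hf) g (hS hg)
  const := h.const
  pat f hf r A₀ A hA hfS := h.pat f hf r A₀ A hA fun a ha => hS (hfS a ha)

variable (p : ℕ) [Fact p.Prime] {k : Type x} (C : Type u) (kb : Type v) (N : Type w)
  [Field k] [Field kb] [IsAlgClosed kb] [Algebra k kb] [Algebra.IsAlgebraic k kb]
  [Algebra ℚ_[p] k] [FiniteDimensional ℚ_[p] k]
  [NontriviallyNormedField C] [IsUltrametricDist C] [CompleteSpace C] [IsAlgClosed C] [CharZero C]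
  [Field N] [Algebra kb C] [Algebra kb N] [Algebra k N] [IsScalarTower k kb N] [TrdegOne kb N]
  [MulSemiringAction Gal(kb/k) C] [MulSemiringAction Gal(kb/k) N]
  [NormAct Gal(kb/k) C] [OpenStab Gal(kb/k) N] [Equi Gal(kb/k) kb C] [Equi Gal(kb/k) kb N]
  (T : N) [Fact (Transcendental kb T)] [FixedT Gal(kb/k) T]

/-- **(D)** a fixed `D`-vertex gives partial characters -/
theorem partChar_of_fixed_D {ζ : k} (hζ : IsPrimitiveRoot ζ p)
    (Cont : DT C kb N T → ValuationSubring N → Prop)
    (h2a : ∀ d : DT C kb N T, ∃ W : ValuationSubring N, (∀ c : kb, algebraMap kb N c ∈ W) ∧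
      T ∉ W ∧ Cont d W)
    (h2d : ∀ (g : Gal(kb/k)) (d : DT C kb N T) (W : ValuationSubring N), Cont d W →
      Cont (g • d) (g • W))
    (S : Finset N) (hS : ∀ f ∈ S, ∀ σ : Gal(kb/k), σ • f = f)
    (h2e : ∀ (d : DT C kb N T) (W W' : ValuationSubring N), Cont d W → Cont d W' →
      ∀ x ∈ adjoin kb (insert T (S : Set N)), x ∈ W → x ∈ W')
    (d : DT C kb N T) (hd : ∀ g : Gal(kb/k), g • d = d) :
    ∃ χ : N → Cl p k, PartChar p k S χ := by
  classical
  obtain ⟨W, hW, hWT, hC⟩ := h2a d
  obtain ⟨χ, hχ⟩ := partChar_of_trace hζ (kb := kb) (N := N)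
    (fun σ c => by
      have := Equi.smul_algebraMap (G := Gal(kb/k)) (F := kb) (A := N) σ c
      exact this)
    (insert T S) (by
      intro f hf σ
      rcases Finset.mem_insert.1 hf with rfl | hf
      · exact FixedT.fixed σ
      · exact hS f hf σ) (Finset.mem_insert_self T S)
    (Fact.out : Transcendental kb T) W hW hWT (by
      intro σ x hx hxW
      rw [Finset.coe_insert] at hx
      have h1 : Cont d (σ⁻¹ • W) := by
        have h2 := h2d σ⁻¹ d W hC
        rwa [hd] at h2
      have h3 := h2e d W (σ⁻¹ • W) hC h1 x hx hxW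
      rwa [ValuationSubring.mem_inv_pointwise_smul_iff] at h3)
  exact ⟨χ, partChar_mono (Finset.subset_insert T S) hχ⟩

end

end P025H505
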