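import Vale.Agent.P025.R2.H720.Tree

/-!
P025, A-END, item (D) in the form used by helper855 (`chars_of`): a fixed `D`-vertex of `T / c`,
`c` large, contains a pole of `T` whose trace on a given finite level is stable. The relation
`Cont` (the vertex contains the place) is abstract; its three properties are hypotheses.
-/

namespace P025H505

open P025H720 P025H544 P025H373 IntermediateField
open scoped Pointwise

universe u v w x

section

variable {k : Type x} (C : Type u) (kb : Type v) (N : Type w)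
  [Field k] [Field kb] [IsAlgClosed kb] [Algebra k kb]
  [NontriviallyNormedField C] [IsUltrametricDist C] [CompleteSpace C] [IsAlgClosed C] [CharZero C]
  [Field N] [Algebra kb C] [Algebra kb N] [Algebra k N] [IsScalarTower k kb N] [TrdegOne kb N]
  [MulSemiringAction Gal(kb/k) C] [MulSemiringAction Gal(kb/k) N]
  [NormAct Gal(kb/k) C] [OpenStab Gal(kb/k) N] [Equi Gal(kb/k) kb C] [Equi Gal(kb/k) kb N]

/-- **(D)** in the form of `P025H855.chars_of` -/
theorem hD_of
    (Cont : ∀ (T : N) [Fact (Transcendental kb T)], DT C kb N T → ValuationSubring N → Prop)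
    (h2a : ∀ (T : N) [Fact (Transcendental kb T)] (d : DT C kb N T), ∃ W : ValuationSubring N,
      (∀ c : kb, algebraMap kb N c ∈ W) ∧ T ∉ W ∧ Cont T d W)
    (h2d : ∀ (T : N) [Fact (Transcendental kb T)] [FixedT Gal(kb/k) T] (g : Gal(kb/k))
      (d : DT C kb N T) (W : ValuationSubring N), Cont T d W → Cont T (g • d) (g • W))
    (h2e : ∀ T : N, Transcendental kb T → ∀ F : Finset N, ∃ R : ℝ, ∀ c : kb,
      R ≤ ‖algebraMap kb C c‖ → ∀ (T₂ : N) [Fact (Transcendental kb T₂)],
        T₂ * algebraMap kb N c = T → ∀ (d : DT C kb N T₂) (W W' : ValuationSubring N),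
          (∀ a : kb, algebraMap kb N a ∈ W) → (∀ a : kb, algebraMap kb N a ∈ W') →
          Cont T₂ d W → Cont T₂ d W' → ∀ x ∈ adjoin kb (F : Set N), x ∈ W → x ∈ W') :
    ∀ T : N, Transcendental kb T → (∀ g : Gal(kb/k), g • T = T) → ∀ F : Finset N, ∃ R : ℝ,
      ∀ c : k, R ≤ ‖algebraMap kb C (algebraMap k kb c)‖ →
        ∀ (T₂ : N) [Fact (Transcendental kb T₂)] [FixedT Gal(kb/k) T₂],
          T₂ * algebraMap k N c = T → ∀ d : DT C kb N T₂, (∀ g : Gal(kb/k), g • d = d) →
            ∃ W : ValuationSubring N, (∀ a : kb, algebraMap kb N a ∈ W) ∧ T ∉ W ∧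
              ∀ g : Gal(kb/k), ∀ x ∈ adjoin kb (F : Set N), x ∈ W → g • x ∈ W := by
  intro T hT _ F
  obtain ⟨R, hR⟩ := h2e T hT F
  refine ⟨max R 1, ?_⟩
  intro c hc T₂ _ _ hT₂ d hd
  obtain ⟨W, hW, hWT, hC⟩ := h2a T₂ d
  have hc0 : c ≠ 0 := by
    rintro rfl
    have h1 : (1 : ℝ) ≤ ‖algebraMap kb C (algebraMap k kb 0)‖ := (le_max_right _ _).trans hc
    rw [map_zero, map_zero, norm_zero] at h1
    exact absurd h1 (not_le.2 zero_lt_one)
  have hck : algebraMap k N c ≠ 0 := by
    rw [Ne, map_eq_zero]; exact hc0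
  refine ⟨W, hW, ?_, ?_⟩
  · intro h
    apply hWT
    have h1 : T₂ = T * algebraMap k N c⁻¹ := by
      rw [map_inv₀, ← hT₂, mul_assoc, mul_inv_cancel₀ hck, mul_one]
    rw [h1, IsScalarTower.algebraMap_apply k kb N]
    exact mul_mem h (hW _)
  · intro g x hx hxW
    have h1 : Cont T₂ d (g⁻¹ • W) := by
      have h2 := h2d T₂ g⁻¹ d W hC
      rwa [hd] at h2
    have hW' : ∀ a : kb, algebraMap kb N a ∈ g⁻¹ • W := by
      intro a
      rw [ValuationSubring.mem_inv_pointwise_smul_iff,
        Equi.smul_algebraMap (G := Gal(kb/k)) (F := kb) (A := N)]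
      exact hW _
    have h3 := hR (algebraMap k kb c) ((le_max_left _ _).trans hc) T₂
      (by rw [← IsScalarTower.algebraMap_apply k kb N]; exact hT₂) d W (g⁻¹ • W) hW hW' hC h1
      x hx hxW
    rwa [ValuationSubring.mem_inv_pointwise_smul_iff] at h3

end

end P025H505
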