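import Vale.Agent.P025.R2.H63.Lead
import Vale.Agent.P025.R2.H720.NC
import Vale.Agent.P025.H16.Dvr

/-!
P025, A-END, item (D): a valuation ring of `N` over `kb` whose trace on a finitely generated
subextension is stable under the group gives a rational place of the field generated over `k'` by
finitely many fixed elements, hence partial characters.
-/

namespace P025H505

open P025H641 P025H855 P025H720 P025H16 IntermediateField Polynomial

universe u v w

section near

variable {kb : Type v} {N : Type w} [Field kb] [Field N] [Algebra kb N] [IsAlgClosed kb]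
  [TrdegOne kb N]

/-- the residue field of a nontrivial valuation ring over the constants is the field of constants -/
theorem exists_near_const (W : ValuationSubring N) (hW : ∀ c : kb, algebraMap kb N c ∈ W)
    {τ : N} (hτ0 : τ ≠ 0) (hτ : W.valuation τ < 1) {x : N} (hx : x ∈ W) :
    ∃ a : kb, W.valuation (x - algebraMap kb N a) < 1 := by
  by_contra hcon
  push Not at hcon
  have hunit : ∀ a : kb, W.valuation (x - algebraMap kb N a) = 1 := fun a =>
    le_antisymm ((W.valuation_le_one_iff _).2 (sub_mem hx (hW a))) (hcon a)
  have hxt : Transcendental kb x := by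
    intro h
    have hi : IsIntegral kb x := h.isIntegral
    obtain ⟨a, ha⟩ := minpoly.mem_range_of_degree_eq_one kb x
      (IsAlgClosed.degree_eq_one_of_irreducible kb (minpoly.irreducible hi))
    have h2 := hunit a
    rw [ha, sub_self, map_zero] at h2
    exact zero_ne_one h2
  obtain ⟨P, hP0, hP⟩ := TrdegOne.alg (kb := kb) x τ hxt
  -- every nonzero element of `kb[x]` is a unit
  have hu : ∀ y : Algebra.adjoin kb {x}, y ≠ 0 → W.valuation (y : N) = 1 := by
    intro y hy
    obtain ⟨q, hq⟩ : ∃ q : kb[X], aeval x q = (y : N) := by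
      have h3 : (y : N) ∈ (aeval (R := kb) x).range := by
        rw [← Algebra.adjoin_singleton_eq_range_aeval]
        exact y.2
      exact h3
    have hq0 : q ≠ 0 := by
      rintro rfl
      rw [map_zero] at hq
      exact hy (Subtype.ext hq.symm)
    rw [← hq]
    have hs := IsAlgClosed.splits q
    rw [hs.eq_prod_roots, map_mul, aeval_C, map_multiset_prod, Multiset.map_map, map_mul,
      map_multiset_prod, Multiset.map_map]
    have h1 : W.valuation (algebraMap kb N q.leadingCoeff) = 1 :=
      P025H63.val_const hW (leadingCoeff_ne_zero.2 hq0)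
    rw [h1, one_mul]
    apply Multiset.prod_eq_one
    intro z hz
    obtain ⟨a, -, rfl⟩ := Multiset.mem_map.1 hz
    simp only [Function.comp_apply, map_sub, aeval_X, aeval_C]
    exact hunit a
  -- take out powers of `τ`
  have key : ∀ (n : ℕ) (P : (Algebra.adjoin kb {x})[X]), P.natDegree ≤ n → P ≠ 0 →
      aeval τ P ≠ 0 := by
    intro n
    induction n with
    | zero =>
      intro P hn hP0 h
      rw [eq_C_of_natDegree_le_zero hn] at h hP0
      rw [aeval_C] at h
      have h1 := hu (P.coeff 0) (fun h0 => hP0 (by rw [h0, C_0]))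
      have h2 : ((P.coeff 0 : Algebra.adjoin kb {x}) : N) = 0 := h
      rw [h2, map_zero] at h1
      exact zero_ne_one h1
    | succ n ih =>
      intro P hn hP0 h
      have hd := P.divX_mul_X_add
      have hmem : ∀ Q : (Algebra.adjoin kb {x})[X], W.valuation (aeval τ Q) ≤ 1 := by
        intro Q
        rw [W.valuation_le_one_iff]
        have h1 : ∀ y : Algebra.adjoin kb {x}, (y : N) ∈ W := by
          intro y
          rcases eq_or_ne y 0 with rfl | hy
          · exact zero_mem _
          · exact (W.valuation_le_one_iff _).1 (hu y hy).le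
        rw [aeval_eq_sum_range]
        refine sum_mem fun i _ => ?_
        rw [Algebra.smul_def]
        exact mul_mem (h1 _) (pow_mem ((W.valuation_le_one_iff _).1 hτ.le) _)
      have h1 : aeval τ P = aeval τ P.divX * τ + algebraMap _ N (P.coeff 0) := by
        conv_lhs => rw [← hd]
        rw [map_add, map_mul, aeval_X, aeval_C]
      by_cases h0 : P.coeff 0 = 0
      · rw [h0, map_zero, add_zero, h] at h1
        have h2 : aeval τ P.divX = 0 := by
          rcases mul_eq_zero.1 h1.symm with h2 | h2
          · exact h2
          · exact absurd h2 hτ0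
        refine ih P.divX ?_ ?_ h2
        · rw [natDegree_divX_eq_natDegree_tsub_one]; omega
        · intro h3
          apply hP0
          rw [← hd, h3, h0, zero_mul, C_0, add_zero]
      · have h2 : W.valuation (algebraMap (Algebra.adjoin kb {x}) N (P.coeff 0)) = 1 :=
          hu _ h0
        have h3 : algebraMap (Algebra.adjoin kb {x}) N (P.coeff 0) = -(aeval τ P.divX * τ) := by
          rw [h] at h1
          exact (neg_eq_of_add_eq_zero_right h1.symm).symm
        rw [h3, Valuation.map_neg, map_mul] at h2
        have h4 : W.valuation (aeval τ P.divX) * W.valuation τ < 1 :=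
          mul_lt_one_of_nonneg_of_lt_one_right (hmem _) zero_le hτ
        exact h4.ne h2
  exact key _ P le_rfl hP0 hP

end near

section rat

variable {k' : Type u} {kb : Type v} {N : Type w} [Field k'] [CharZero k'] [Field kb]
  [Algebra k' kb] [Field N] [Algebra kb N] [Algebra k' N] [IsScalarTower k' kb N]
  [IsAlgClosed kb] [Algebra.IsAlgebraic k' kb] [TrdegOne kb N] [MulSemiringAction Gal(kb/k') N]

omit [CharZero k'] [IsAlgClosed kb] [MulSemiringAction Gal(kb/k') N] in
/-- a finite set of elements of `N`, one of them transcendental, generates a finite extension -/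
theorem finite_over (S : Finset N) {T : N} (hT : T ∈ adjoin k' (S : Set N))
    (hTt : Transcendental kb T) :
    FiniteDimensional k'⟮(⟨T, hT⟩ : adjoin k' (S : Set N))⟯ (adjoin k' (S : Set N)) := by
  set E := adjoin k' (S : Set N) with hE
  set T' : E := ⟨T, hT⟩ with hT'
  set F := k'⟮T'⟯ with hF
  have h1 : ∀ c : kb, algebraMap kb N c ∈ algebraicClosure F N := by
    intro c
    have h2 : IsAlgebraic k' (algebraMap kb N c) :=
      (Algebra.IsAlgebraic.isAlgebraic (R := k') c).algebraMap
    exact (mem_algebraicClosure_iff).2 (h2.tower_top F)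
  have h2 : T ∈ algebraicClosure F N := by
    have h3 : T = algebraMap F N ⟨T', mem_adjoin_simple_self k' T'⟩ := rfl
    rw [h3]
    exact IntermediateField.algebraMap_mem _ _
  have h3 : ∀ y : Algebra.adjoin kb {T}, algebraMap (Algebra.adjoin kb {T}) N y ∈
      algebraicClosure F N := by
    rintro ⟨y, hy⟩
    exact Algebra.adjoin_induction (p := fun x _ => x ∈ algebraicClosure F N)
      (fun x hx => by rw [Set.mem_singleton_iff.1 hx]; exact h2) (fun c => h1 c)
      (fun x y _ _ hx hy => add_mem hx hy) (fun x y _ _ hx hy => mul_mem hx hy) hy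
  let φ : Algebra.adjoin kb {T} →+* algebraicClosure F N :=
    (algebraMap (Algebra.adjoin kb {T}) N).codRestrict (algebraicClosure F N) h3
  have hφ : Function.Injective φ := by
    intro x y hxy
    apply Subtype.ext
    exact congrArg (fun z : algebraicClosure F N => (z : N)) hxy
  have h4 : ∀ x : N, IsAlgebraic F x := by
    intro x
    obtain ⟨P, hP0, hP⟩ := TrdegOne.alg (kb := kb) T x hTt
    have h5 : IsAlgebraic (algebraicClosure F N) x := by
      refine ⟨P.map φ, (Polynomial.map_ne_zero_iff hφ).2 hP0, ?_⟩
      rw [aeval_def, eval₂_map]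
      exact hP
    exact h5.restrictScalars F
  have h5 : ∀ x : E, IsAlgebraic F x := by
    intro x
    exact (isAlgebraic_algebraMap_iff (algebraMap E N).injective).1 (h4 x)
  let S' : Set E := (fun x : E => (x : N)) ⁻¹' (S : Set N)
  have hS' : S'.Finite := S.finite_toSet.preimage Subtype.val_injective.injOn
  have _ : Finite S' := hS'
  have h6 : FiniteDimensional F (adjoin F S') :=
    finiteDimensional_adjoin fun x _ => (h5 x).isIntegral
  have h7 : adjoin F S' = ⊤ := by
    rw [eq_top_iff]
    have h8 : (⊤ : IntermediateField k' E) ≤ (adjoin F S').restrictScalars k' := by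
      have h9 : lift (adjoin k' S') = E := by
        have h11 : Subtype.val '' S' = (S : Set N) := by
          ext x
          constructor
          · rintro ⟨y, hy, rfl⟩
            exact hy
          · intro hx
            exact ⟨⟨x, subset_adjoin k' _ hx⟩, hx, rfl⟩
        rw [lift_adjoin, h11]
      have h10 : adjoin k' S' = ⊤ := by
        apply lift_injective E
        rw [h9, lift_top]
      rw [← h10, adjoin_le_iff]
      exact subset_adjoin F S'
    intro x _
    exact h8 trivial
  rw [h7] at h6
  exact LinearEquiv.finiteDimensional (topEquiv (F := F) (E := E)).toLinearEquiv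

/-- **A stable trace gives a rational place.** -/
theorem ratPlace_of_trace
    (hsm : ∀ (σ : Gal(kb/k')) (c : kb), σ • algebraMap kb N c = algebraMap kb N (σ c))
    (S : Finset N) (hS : ∀ f ∈ S, ∀ σ : Gal(kb/k'), σ • f = f) {T : N} (hT : T ∈ S)
    (hTt : Transcendental kb T) (W : ValuationSubring N) (hW : ∀ c : kb, algebraMap kb N c ∈ W)
    (hWT : T ∉ W)
    (hst : ∀ σ : Gal(kb/k'), ∀ x ∈ adjoin kb (S : Set N), x ∈ W → σ • x ∈ W) :
    IsRatPlace k' (adjoin k' (S : Set N)) (W.comap (algebraMap (adjoin k' (S : Set N)) N)) := by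
  have hTE : T ∈ adjoin k' (S : Set N) := subset_adjoin k' _ hT
  have hfin := finite_over (k' := k') (kb := kb) S hTE hTt
  have hconst : ∀ c : k', algebraMap k' N c ∈ W := by
    intro c
    rw [IsScalarTower.algebraMap_apply k' kb N]
    exact hW _
  have hT0 : T ≠ 0 := by
    rintro rfl
    exact hWT (zero_mem _)
  have hτ : W.valuation T⁻¹ < 1 := by
    rw [map_inv₀]
    have h1 : 1 < W.valuation T := by
      rw [← not_le, W.valuation_le_one_iff]
      exact hWT
    exact inv_lt_one_of_one_lt₀ h1
  have hfixE : ∀ x ∈ adjoin k' (S : Set N), ∀ σ : Gal(kb/k'), σ • x = x := by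
    intro x hx σ
    induction hx using adjoin_induction with
    | mem x hx => exact hS x hx σ
    | algebraMap c =>
      rw [IsScalarTower.algebraMap_apply k' kb N, hsm, AlgEquiv.commutes]
    | add x y _ _ hx hy => rw [smul_add, hx, hy]
    | inv x _ hx => rw [smul_inv'', hx]
    | mul x y _ _ hx hy => rw [smul_mul', hx, hy]
  have hL : ∀ x ∈ adjoin kb (S : Set N), ∀ σ : Gal(kb/k'), σ • x ∈ adjoin kb (S : Set N) := by
    intro x hx σ
    induction hx using adjoin_induction with
    | mem x hx => rw [hS x hx σ]; exact subset_adjoin kb _ hx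
    | algebraMap c => rw [hsm]; exact IntermediateField.algebraMap_mem _ _
    | add x y _ _ hx hy => rw [smul_add]; exact add_mem hx hy
    | inv x _ hx => rw [smul_inv'']; exact inv_mem hx
    | mul x y _ _ hx hy => rw [smul_mul']; exact mul_mem hx hy
  have hEL : ∀ x ∈ adjoin k' (S : Set N), x ∈ adjoin kb (S : Set N) := by
    intro x hx
    induction hx using adjoin_induction with
    | mem x hx => exact subset_adjoin kb _ hx
    | algebraMap c =>
      rw [IsScalarTower.algebraMap_apply k' kb N]; exact IntermediateField.algebraMap_mem _ _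
    | add x y _ _ hx hy => exact add_mem hx hy
    | inv x _ hx => exact inv_mem hx
    | mul x y _ _ hx hy => exact mul_mem hx hy
  have hgal : IsGalois k' kb := by
    have : IsAlgClosure k' kb := ⟨inferInstance, inferInstance⟩
    have h1 : Normal k' kb := IsAlgClosure.normal k' kb
    exact ⟨⟩
  have hV : ∀ x : adjoin k' (S : Set N),
      (W.comap (algebraMap (adjoin k' (S : Set N)) N)).valuation x < 1 ↔
      W.valuation (x : N) < 1 := by
    intro x
    rcases eq_or_ne x 0 with rfl | hx
    · simp
    · have h1 : (x : N) ≠ 0 := by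
        intro h; exact hx (Subtype.ext h)
      rw [← not_iff_not, not_lt, not_lt]
      have h2 : ∀ (F : Type w) (_ : Field F) (U : ValuationSubring F) (z : F), z ≠ 0 →
          (1 ≤ U.valuation z ↔ z⁻¹ ∈ U) := by
        intro F _ U z hz
        rw [← U.valuation_le_one_iff, map_inv₀, inv_le_one₀ (zero_lt_iff.2 (by
          rw [Ne, map_eq_zero]; exact hz))]
      rw [h2 _ _ _ _ hx, h2 _ _ _ _ h1, ValuationSubring.mem_comap, map_inv₀]
      rfl
  refine ⟨⟨?_, ?_⟩, ?_⟩
  · intro c
    rw [ValuationSubring.mem_comap, ← IsScalarTower.algebraMap_apply]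
    exact hconst c
  · refine dvr_of_funField (k := k') (⟨T, hTE⟩ : adjoin k' (S : Set N)) _ ?_ ?_
    · intro c
      rw [ValuationSubring.mem_comap, ← IsScalarTower.algebraMap_apply]
      exact hconst c
    · intro htop
      apply hWT
      have h1 : (⟨T, hTE⟩ : adjoin k' (S : Set N)) ∈
          W.comap (algebraMap (adjoin k' (S : Set N)) N) := by
        rw [htop]; exact ValuationSubring.mem_top _
      exact h1
  · intro x hx
    obtain ⟨a, ha⟩ := exists_near_const (kb := kb) W hW (inv_ne_zero hT0) hτ
      (x := (x : N)) hx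
    have hfix : ∀ σ : Gal(kb/k'), σ a = a := by
      intro σ
      set y : N := (x : N) - algebraMap kb N a with hy
      have hyL : y ∈ adjoin kb (S : Set N) :=
        sub_mem (hEL _ x.2) (IntermediateField.algebraMap_mem _ _)
      have h1 : σ • y = (x : N) - algebraMap kb N (σ a) := by
        rw [hy, smul_sub, hfixE _ x.2 σ, hsm]
      have h2 : W.valuation (σ • y) < 1 := by
        rcases eq_or_ne y 0 with h0 | h0
        · rw [h0, smul_zero, map_zero]; exact zero_lt_one
        · by_contra hcon
          rw [not_lt] at hcon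
          have h3 : (σ • y)⁻¹ ∈ W := by
            rw [← W.valuation_le_one_iff, map_inv₀]
            exact inv_le_one_of_one_le₀ hcon
          rw [← smul_inv''] at h3
          have h4 := hst σ⁻¹ (σ • y⁻¹) (hL _ (inv_mem hyL) σ) h3
          rw [inv_smul_smul, ← W.valuation_le_one_iff, map_inv₀] at h4
          have h5 : W.valuation y ≠ 0 := by rw [Ne, map_eq_zero]; exact h0
          exact absurd ((inv_le_one₀ (zero_lt_iff.2 h5)).1 h4) (not_le.2 ha)
      rw [h1] at h2
      have h3 : W.valuation (algebraMap kb N (a - σ a)) < 1 := by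
        have h4 : algebraMap kb N (a - σ a) =
            ((x : N) - algebraMap kb N (σ a)) - ((x : N) - algebraMap kb N a) := by
          rw [map_sub]; ring
        rw [h4]
        exact (Valuation.map_sub _ _ _).trans_lt (max_lt h2 ha)
      exact (sub_eq_zero.1 (P025H63.const_eq_zero hW h3)).symm
    obtain ⟨c, hc⟩ := mem_bot.1 ((InfiniteGalois.mem_bot_iff_fixed a).2 hfix)
    refine ⟨c, ?_⟩
    rw [hV]
    have h1 : ((x - algebraMap k' (adjoin k' (S : Set N)) c : adjoin k' (S : Set N)) : N) =
        (x : N) - algebraMap kb N a := by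
      rw [← hc, ← IsScalarTower.algebraMap_apply]
      rfl
    rw [h1]
    exact ha

end rat

section chars

variable {p : ℕ} [Fact p.Prime] {k' : Type u} {kb : Type v} {N : Type w} [Field k']
  [Algebra ℚ_[p] k'] [FiniteDimensional ℚ_[p] k'] [Field kb]
  [Algebra k' kb] [Field N] [Algebra kb N] [Algebra k' N] [IsScalarTower k' kb N]
  [IsAlgClosed kb] [Algebra.IsAlgebraic k' kb] [TrdegOne kb N] [MulSemiringAction Gal(kb/k') N]

/-- **(D)**: partial characters from a valuation ring with a stable trace. -/
theorem partChar_of_trace {ζ : k'} (hζ : IsPrimitiveRoot ζ p)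
    (hsm : ∀ (σ : Gal(kb/k')) (c : kb), σ • algebraMap kb N c = algebraMap kb N (σ c))
    (S : Finset N) (hS : ∀ f ∈ S, ∀ σ : Gal(kb/k'), σ • f = f) {T : N} (hT : T ∈ S)
    (hTt : Transcendental kb T) (W : ValuationSubring N) (hW : ∀ c : kb, algebraMap kb N c ∈ W)
    (hWT : T ∉ W)
    (hst : ∀ σ : Gal(kb/k'), ∀ x ∈ adjoin kb (S : Set N), x ∈ W → σ • x ∈ W) :
    ∃ χ : N → Cl p k', PartChar p k' S χ := by
  have hchar : CharZero k' := charZero_of_injective_algebraMap (algebraMap ℚ_[p] k').injective
  have h1 := ratPlace_of_trace hsm S hS hT hTt W hW hWT hst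
  exact PartChar.push (p := p) (k' := k') (algebraMap (adjoin k' (S : Set N)) N) (fun c => rfl)
    (fun S' => P025H63.partChar_of_ratPlace hζ h1 S') S
    (fun f hf => ⟨⟨f, subset_adjoin k' _ hf⟩, rfl⟩)

end chars

end P025H505
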