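import Vale.Agent.P025.R2.H281.ExistP
import Vale.Agent.P025.R2.H720.Tree

/-!
P025, row A-EXIST for a `p`-adic field `k` and the tree `V_T, D_T, E_T` of `N`: the inputs are
closedness of `N` under topological classes, and uniqueness of fixed edges.
-/

namespace P025H505

open Topology P025H970 P025H281 P025H720 P025H544 P025H373

universe u v w x

section

variable (p : ℕ) [Fact p.Prime] {k : Type x} (C : Type u) (kb : Type v) (N : Type w)
  [Field k] [Field kb] [IsAlgClosed kb] [Algebra k kb] [IsGalois k kb]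
  [Algebra ℚ_[p] k] [Algebra ℚ_[p] kb] [IsScalarTower ℚ_[p] k kb] [FiniteDimensional ℚ_[p] k]
  [Algebra.IsAlgebraic ℚ_[p] kb]
  [NontriviallyNormedField C] [IsUltrametricDist C] [CompleteSpace C] [IsAlgClosed C] [CharZero C]
  [Field N] [Algebra kb C] [Algebra kb N] [TrdegOne kb N]
  [MulSemiringAction Gal(kb/k) C] [MulSemiringAction Gal(kb/k) N]
  [NormAct Gal(kb/k) C] [OpenStab Gal(kb/k) N] [Equi Gal(kb/k) kb C] [Equi Gal(kb/k) kb N]
  (T : N) [Fact (Transcendental kb T)] [FixedT Gal(kb/k) T]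

/-- A-EXIST for a `p`-adic field -/
theorem exists_fixed_P
    -- from A-GRAPH
    (hcl : ∀ (n : ℕ) [NeZero n], TopClosed (RatFunc C) (F1 C) (F2 C) (NCT C kb N T) n)
    -- from A-UNIQ
    (hU : ∀ (q : ℕ) [Fact q.Prime] (H : Subgroup Gal(kb/k)), IsClosed (H : Set Gal(kb/k)) →
      IsPro q H → ValK p kb k q H → ∀ e e' : ET C kb N T, (∀ s : H, s • e = e) →
        (∀ s : H, s • e' = e') → e = e') :
    ((∃ x : VT C kb N T, ∀ g : Gal(kb/k), g • x = x) ∨
      (∃ y : DT C kb N T, ∀ g : Gal(kb/k), g • y = y)) ∧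
    (∀ x x' : VT C kb N T, (∀ s : wildK p kb k, s • x = x) → (∀ s : wildK p kb k, s • x' = x') →
      x = x') ∧
    (∀ y y' : DT C kb N T, (∀ s : wildK p kb k, s • y = y) → (∀ s : wildK p kb k, s • y' = y') →
      y = y') ∧
    (∀ (x : VT C kb N T) (y : DT C kb N T), (∀ s : wildK p kb k, s • x = x) →
      (∀ s : wildK p kb k, s • y = y) →
      ∃ e : ET C kb N T, toV C kb N T e = x ∧ toD C kb N T e = y ∧
        ∀ g : Gal(kb/k), g • e = e) := by
  have hp : p.Prime := Fact.out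
  have : NeZero p := ⟨hp.ne_zero⟩
  obtain ⟨l, hl, hlp⟩ : ∃ l : ℕ, l.Prime ∧ l ≠ p := by
    by_cases h2 : p = 2
    · exact ⟨3, Nat.prime_three, by omega⟩
    · exact ⟨2, Nat.prime_two, fun h => h2 h.symm⟩
  have : Fact l.Prime := ⟨hl⟩
  have : NeZero l := ⟨hl.ne_zero⟩
  exact exists_fixed_padic p kb k (l := l) hlp (continuous_toV C kb N T)
    (continuous_toD C kb N T) (toV_smul Gal(kb/k) C kb N T) (toD_smul Gal(kb/k) C kb N T)
    (graphExact_NCT C kb N T l (hcl l)) (graphExact_NCT C kb N T p (hcl p)) hU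

/-- a fixed vertex exists, and two fixed `D`-vertices are equal -/
theorem exists_fixed_P'
    (hcl : ∀ (n : ℕ) [NeZero n], TopClosed (RatFunc C) (F1 C) (F2 C) (NCT C kb N T) n)
    (hU : ∀ (q : ℕ) [Fact q.Prime] (H : Subgroup Gal(kb/k)), IsClosed (H : Set Gal(kb/k)) →
      IsPro q H → ValK p kb k q H → ∀ e e' : ET C kb N T, (∀ s : H, s • e = e) →
        (∀ s : H, s • e' = e') → e = e') :
    ((∃ x : VT C kb N T, ∀ g : Gal(kb/k), g • x = x) ∨
      (∃ y : DT C kb N T, ∀ g : Gal(kb/k), g • y = y)) ∧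
    (∀ x x' : VT C kb N T, (∀ s : Gal(kb/k), s • x = x) → (∀ s : Gal(kb/k), s • x' = x') →
      x = x') ∧
    (∀ y y' : DT C kb N T, (∀ s : Gal(kb/k), s • y = y) → (∀ s : Gal(kb/k), s • y' = y') →
      y = y') := by
  obtain ⟨h1, h2, h3, -⟩ := exists_fixed_P p C kb N T hcl hU
  exact ⟨h1, fun x x' hx hx' => h2 x x' (fun s => hx s) (fun s => hx' s),
    fun y y' hy hy' => h3 y y' (fun s => hy s) (fun s => hy' s)⟩

end

end P025H505
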