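import Vale.Agent.P025.R2.H505.Step

/-!
P025, row A-SMITH: Smith theory for finite `q`-groups.
-/

namespace P025H505

open Finset

set_option linter.unusedSectionVars false

variable {q : ℕ} [hq : Fact q.Prime] {H V D E : Type*} [Group H]
  [TopologicalSpace V] [CompactSpace V] [TotallySeparatedSpace V]
  [TopologicalSpace D] [CompactSpace D] [TotallySeparatedSpace D]
  [TopologicalSpace E] [CompactSpace E] [TotallySeparatedSpace E]
  [MulAction H V] [ContinuousConstSMul H V] [MulAction H D] [ContinuousConstSMul H D]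
  [MulAction H E] [ContinuousConstSMul H E]

/-- points fixed by a subgroup -/
abbrev FixS {H V : Type*} [Group H] [MulAction H V] (K : Subgroup H) : Type _ :=
  {x : V // ∀ k ∈ K, k • x = x}

/-- map induced on the points fixed by a subgroup -/
def fixS {H V E : Type*} [Group H] [MulAction H V] [MulAction H E] (K : Subgroup H) (v : E → V)
    (hv : ∀ (h : H) (e : E), v (h • e) = h • v e) : FixS (V := E) K → FixS (V := V) K :=
  fun e => ⟨v e.1, fun k hk => by rw [← hv, e.2 k hk]⟩

/-- the map induced on fixed points -/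
def fixMap {H E V : Type*} [Group H] [MulAction H E] [MulAction H V] (v : E → V)
    (hv : ∀ (h : H) (e : E), v (h • e) = h • v e) :
    MulAction.fixedPoints H E → MulAction.fixedPoints H V :=
  fun e => ⟨v e.1, fun h => by rw [← hv, e.2 h]⟩

theorem isClosed_fixS {X : Type*} [TopologicalSpace X] [T2Space X] [MulAction H X]
    [ContinuousConstSMul H X] (K : Subgroup H) : IsClosed {x : X | ∀ k ∈ K, k • x = x} := by
  have : {x : X | ∀ k ∈ K, k • x = x} = ⋂ k ∈ K, {x : X | k • x = x} := by ext; simp
  rw [this]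
  exact isClosed_biInter fun k _ => isClosed_eq (continuous_const_smul k) continuous_id

/-- translation by `σ` on the points fixed by `K'` when `σ` normalises `K'` -/
def trans {X : Type*} [MulAction H X] (K' : Subgroup H) (σ : H)
    (hσ : ∀ k ∈ K', σ⁻¹ * k * σ ∈ K') : FixS (V := X) K' → FixS (V := X) K' :=
  fun x => ⟨σ • x.1, fun k hk => by
    have h := x.2 _ (hσ k hk)
    rw [mul_smul, mul_smul, inv_smul_eq_iff] at h
    exact h⟩

theorem trans_iter {X : Type*} [MulAction H X] (K' : Subgroup H) (σ : H)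
    (hσ : ∀ k ∈ K', σ⁻¹ * k * σ ∈ K') (n : ℕ) (x : FixS (V := X) K') :
    ((trans K' σ hσ)^[n] x).1 = σ ^ n • x.1 := by
  induction n with
  | zero => simp
  | succ n ih =>
    rw [Function.iterate_succ_apply', pow_succ', mul_smul, ← ih]
    rfl

/-- points of `FixS K'` fixed by `σ` are the points fixed by `K` -/
def fixHomeo {X : Type*} [TopologicalSpace X] [MulAction H X] (K' K : Subgroup H) (σ : H)
    (hσ : ∀ k ∈ K', σ⁻¹ * k * σ ∈ K') (hK : K' ≤ K) (hσK : σ ∈ K)
    (hgen : ∀ x : X, (∀ k ∈ K', k • x = x) → σ • x = x → ∀ k ∈ K, k • x = x) :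
    {x : FixS (V := X) K' // trans K' σ hσ x = x} ≃ₜ FixS (V := X) K where
  toFun x := ⟨x.1.1, hgen x.1.1 x.1.2 (by
    have := congrArg Subtype.val x.2
    exact this)⟩
  invFun x := ⟨⟨x.1, fun k hk => x.2 k (hK hk)⟩, Subtype.ext (x.2 σ hσK)⟩
  left_inv x := rfl
  right_inv x := rfl
  continuous_toFun := by fun_prop
  continuous_invFun := by fun_prop

/-- the trivial subgroup fixes everything -/
def botHomeo {X : Type*} [TopologicalSpace X] [MulAction H X] (K : Subgroup H)
    (hK : ∀ k ∈ K, k = 1) : X ≃ₜ FixS (V := X) K where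
  toFun x := ⟨x, fun k hk => by rw [hK k hk, one_smul]⟩
  invFun x := x.1
  left_inv _ := rfl
  right_inv _ := rfl
  continuous_toFun := by fun_prop
  continuous_invFun := by fun_prop

theorem compactSpace_fixS {X : Type*} [TopologicalSpace X] [CompactSpace X] [T2Space X]
    [MulAction H X] [ContinuousConstSMul H X] (K : Subgroup H) :
    CompactSpace (FixS (V := X) K) :=
  isCompact_iff_compactSpace.1 (isClosed_fixS K).isCompact

theorem continuous_trans {X : Type*} [TopologicalSpace X] [MulAction H X]
    [ContinuousConstSMul H X] (K' : Subgroup H) (σ : H) (hσ : ∀ k ∈ K', σ⁻¹ * k * σ ∈ K') :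
    Continuous (trans (X := X) K' σ hσ) :=
  Continuous.subtype_mk ((continuous_const_smul σ).comp continuous_subtype_val) _

theorem continuous_fixS (K : Subgroup H) {v : E → V} (hvc : Continuous v)
    (hv : ∀ (h : H) (e : E), v (h • e) = h • v e) : Continuous (fixS K v hv) :=
  Continuous.subtype_mk (hvc.comp continuous_subtype_val) _

theorem smith_sub {v : E → V} {d : E → D} (hvc : Continuous v) (hdc : Continuous d)
    (hex : GraphExact q v d) (hv : ∀ (h : H) (e : E), v (h • e) = h • v e)
    (hd : ∀ (h : H) (e : E), d (h • e) = h • d e) :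
    ∀ (n : ℕ) (K : Subgroup H), Nat.card K = q ^ n → GraphExact q (fixS K v hv) (fixS K d hd) := by
  classical
  intro n
  induction n with
  | zero =>
    intro K hK
    rw [pow_zero, Nat.card_eq_one_iff_unique] at hK
    obtain ⟨hK1, -⟩ := hK
    have hK' : ∀ k ∈ K, k = 1 := fun k hk => by
      have := hK1.elim ⟨k, hk⟩ ⟨1, K.one_mem⟩
      exact congrArg Subtype.val this
    exact hex.transfer (botHomeo K hK') (botHomeo K hK') (botHomeo K hK') (fun e => rfl)
      (fun e => rfl)
  | succ n ih =>
    intro K hK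
    have hq2 := hq.out.two_le
    have hfin : Finite K := Nat.finite_of_card_ne_zero (by rw [hK]; exact pow_ne_zero _ (by omega))
    obtain ⟨L, hL⟩ := Sylow.exists_subgroup_card_pow_prime (G := K) q (n := n) (by
      rw [hK]; exact pow_dvd_pow q (Nat.le_succ n))
    have hidx : L.index = q := by
      have h1 := L.card_mul_index
      rw [hL, hK, pow_succ] at h1
      exact Nat.eq_of_mul_eq_mul_left (pow_pos (by omega) n) h1
    have hLn : L.Normal := by
      apply Subgroup.normal_of_index_eq_minFac_card
      rw [hidx, hK, Nat.pow_minFac (Nat.succ_ne_zero n), hq.out.minFac_eq]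
    obtain ⟨τ, hτ⟩ : ∃ τ : K, τ ∉ L := by
      by_contra h
      push Not at h
      have : L = ⊤ := by ext x; simp [h x]
      rw [this, Subgroup.index_top] at hidx
      omega
    set K' : Subgroup H := L.map K.subtype with hK'def
    have hK'le : K' ≤ K := by
      rintro x ⟨y, _, rfl⟩
      exact y.2
    have hmemK' : ∀ k : K, (k : H) ∈ K' ↔ k ∈ L := by
      intro k
      constructor
      · rintro ⟨y, hy, hyk⟩
        have : y = k := Subtype.ext hyk
        rwa [← this]
      · intro h
        exact ⟨k, h, rfl⟩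
    have hcard : Nat.card K' = q ^ n := by
      rw [← hL]
      exact (Nat.card_congr (L.equivMapOfInjective K.subtype K.subtype_injective).toEquiv).symm
    obtain ⟨σ, hσdef⟩ : ∃ σ : H, σ = (τ : H) := ⟨_, rfl⟩
    have hσK : σ ∈ K := by rw [hσdef]; exact τ.2
    have hconj : ∀ k ∈ K', σ⁻¹ * k * σ ∈ K' := by
      rintro k ⟨y, hy, rfl⟩
      have h1 := hLn.conj_mem y hy τ⁻¹
      rw [inv_inv] at h1
      rw [hσdef]
      exact (hmemK' (τ⁻¹ * y * τ)).2 h1
    have hσq : σ ^ q ∈ K' := by
      have h1 := L.pow_index_mem τ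
      rw [hidx] at h1
      have := (hmemK' (τ ^ q)).2 h1
      rw [hσdef]
      simpa using this
    have hcong : ∀ k ∈ K, ∃ m : ℤ, (σ ^ m)⁻¹ * k ∈ K' := by
      intro k hk
      have hq' : Nat.card (K ⧸ L) = q := hidx
      have h1 : (QuotientGroup.mk τ : K ⧸ L) ≠ 1 := by
        rwa [Ne, QuotientGroup.eq_one_iff]
      have h2 := mem_zpowers_of_prime_card hq' (g' := (QuotientGroup.mk (⟨k, hk⟩ : K) : K ⧸ L)) h1
      obtain ⟨m, hm⟩ := h2
      refine ⟨m, ?_⟩
      have h3 : (τ ^ m)⁻¹ * ⟨k, hk⟩ ∈ L := by
        rw [← QuotientGroup.eq]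
        rw [← hm]
        simp
      have h4 := (hmemK' _).2 h3
      have h6 : (((τ ^ m)⁻¹ * ⟨k, hk⟩ : K) : H) = (σ ^ m)⁻¹ * k := by simp [hσdef]
      rwa [h6] at h4
    have hgen : ∀ (S : Subgroup H), K' ≤ S → σ ∈ S → ∀ k ∈ K, k ∈ S := by
      intro S hS hσS k hk
      obtain ⟨m, hm⟩ := hcong k hk
      have := S.mul_mem (S.zpow_mem hσS m) (hS hm)
      simpa using this
    have hstep := ih K' hcard
    have := compactSpace_fixS (X := V) K'
    have := compactSpace_fixS (X := D) K'
    have := compactSpace_fixS (X := E) K'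
    have hres := smith_step (q := q) (v := fixS K' v hv) (d := fixS K' d hd)
      (continuous_fixS K' hvc hv) (continuous_fixS K' hdc hd) hstep
      (continuous_trans K' σ hconj) (continuous_trans K' σ hconj) (continuous_trans K' σ hconj)
      (fun x => by apply Subtype.ext; rw [trans_iter]; exact x.2 _ hσq)
      (fun x => by apply Subtype.ext; rw [trans_iter]; exact x.2 _ hσq)
      (fun x => by apply Subtype.ext; rw [trans_iter]; exact x.2 _ hσq)
      (fun e => Subtype.ext (hv σ e.1)) (fun e => Subtype.ext (hd σ e.1))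
    exact hres.transfer
      (fixHomeo K' K σ hconj hK'le hσK (fun x hx hσx k hk =>
        hgen (MulAction.stabilizer H x) (fun k hk => hx k hk) hσx k hk))
      (fixHomeo K' K σ hconj hK'le hσK (fun x hx hσx k hk =>
        hgen (MulAction.stabilizer H x) (fun k hk => hx k hk) hσx k hk))
      (fixHomeo K' K σ hconj hK'le hσK (fun x hx hσx k hk =>
        hgen (MulAction.stabilizer H x) (fun k hk => hx k hk) hσx k hk))
      (fun e => rfl) (fun e => rfl)

/-- points fixed by the full subgroup -/
def topHomeo {X : Type*} [TopologicalSpace X] [MulAction H X] :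
    FixS (V := X) (⊤ : Subgroup H) ≃ₜ MulAction.fixedPoints H X where
  toFun x := ⟨x.1, fun h => x.2 h trivial⟩
  invFun x := ⟨x.1, fun h _ => x.2 h⟩
  left_inv _ := rfl
  right_inv _ := rfl
  continuous_toFun := by fun_prop
  continuous_invFun := by fun_prop

/-- Smith theory for finite `q`-groups -/
theorem smith_finite [Finite H] (hH : IsPGroup q H) {v : E → V} {d : E → D} (hvc : Continuous v)
    (hdc : Continuous d) (hex : GraphExact q v d) (hv : ∀ (h : H) (e : E), v (h • e) = h • v e)
    (hd : ∀ (h : H) (e : E), d (h • e) = h • d e) :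
    GraphExact q (fixMap v hv) (fixMap d hd) := by
  obtain ⟨n, hn⟩ := hH.exists_card_eq
  have h1 := smith_sub hvc hdc hex hv hd n ⊤ (by rw [← hn]; exact Nat.card_congr Subgroup.topEquiv.toEquiv)
  exact h1.transfer topHomeo topHomeo topHomeo (fun e => rfl) (fun e => rfl)

end P025H505
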