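import Vale.Agent.P025.R2.H505.Exist

/-!
P025, Smith theory in the form (A.2) of helper63: closed pro-`l` subgroups of positive weight.
-/

namespace P025H505

open Finset Topology P025H970 P025H281

variable {G V D E : Type*} [Group G] [TopologicalSpace G]
  [IsTopologicalGroup G] [CompactSpace G] [TotallyDisconnectedSpace G]
  [TopologicalSpace V] [CompactSpace V] [T2Space V] [TotallyDisconnectedSpace V]
  [TopologicalSpace D] [CompactSpace D] [T2Space D] [TotallyDisconnectedSpace D]
  [TopologicalSpace E] [CompactSpace E] [T2Space E] [TotallyDisconnectedSpace E]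
  [MulAction G V] [ContinuousSMul G V] [MulAction G D] [ContinuousSMul G D]
  [MulAction G E] [ContinuousSMul G E]

/-- Smith theory for a closed pro-`l` subgroup `U` on which some `φ` acts by `x ↦ x ^ Q`, `Q > 1` -/
theorem fixConn_of_weight {l : ℕ} [hl : Fact l.Prime] {v : E → V} {d : E → D} (hvc : Continuous v)
    (hdc : Continuous d) (hv : ∀ (g : G) (e : E), v (g • e) = g • v e)
    (hd : ∀ (g : G) (e : E), d (g • e) = g • d e) (hex : GraphExact l v d)
    (U : Subgroup G) (hU : IsClosed (U : Set G)) (hpro : IsPro l U)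
    {φ : G} {Q : ℕ} (hQ : 1 < Q) (hrel : ∀ u ∈ U, φ * u * φ⁻¹ = u ^ Q) :
    FixConn l U v d :=
  fixConn_of_van hvc hdc hv hd hex U hU hpro (van_of_weight hvc hdc hv hd hex U hQ hrel)

end P025H505
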