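import Vale.Agent.P025.R2.H505.Step

/-!
P025, row A-SMITH: obstruction homomorphisms and the weight argument.
-/

namespace P025H505

open Finset

set_option linter.unusedSectionVars false

section obst

variable {n : ℕ} {G V D E : Type*} [Group G]
  [TopologicalSpace V] [TopologicalSpace D]
  [MulAction G V] [MulAction G D] [MulAction G E]

/-- the edge function `α ∘ v - β ∘ d` is invariant under `g` -/
def EInv (v : E → V) (d : E → D) (α : LocallyConstant V (ZMod n)) (β : LocallyConstant D (ZMod n))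
    (g : G) : Prop :=
  ∀ e, α (v (g • e)) - β (d (g • e)) = α (v e) - β (d e)

/-- `g` translates `α` and `β` by the constant `c` -/
def IsObst (α : LocallyConstant V (ZMod n)) (β : LocallyConstant D (ZMod n)) (g : G)
    (c : ZMod n) : Prop :=
  (∀ x, α (g • x) = α x + c) ∧ ∀ y, β (g • y) = β y + c

variable {v : E → V} {d : E → D} {α : LocallyConstant V (ZMod n)} {β : LocallyConstant D (ZMod n)}

theorem EInv.one : EInv v d α β (1 : G) := fun e => by simp

theorem EInv.mul {g h : G} (hg : EInv v d α β g) (hh : EInv v d α β h) :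
    EInv v d α β (g * h) := fun e => by
  rw [mul_smul, hg, hh]

theorem EInv.inv {g : G} (hg : EInv v d α β g) : EInv v d α β g⁻¹ := fun e => by
  have := hg (g⁻¹ • e)
  rw [smul_inv_smul] at this
  exact this.symm

/-- stabilizer of the edge function -/
def stabE (G : Type*) {V D E : Type*} [Group G] [TopologicalSpace V] [TopologicalSpace D]
    [MulAction G V] [MulAction G D] [MulAction G E] (v : E → V)
    (d : E → D) (α : LocallyConstant V (ZMod n)) (β : LocallyConstant D (ZMod n)) :
    Subgroup G where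
  carrier := {g | EInv v d α β g}
  one_mem' := EInv.one
  mul_mem' := fun h1 h2 => EInv.mul h1 h2
  inv_mem' := fun h => EInv.inv h

theorem mem_stabE {g : G} : g ∈ stabE G v d α β ↔ EInv v d α β g := Iff.rfl

variable [ContinuousConstSMul G V] [ContinuousConstSMul G D] [TopologicalSpace E]

theorem exists_obst (hex : GraphExact n v d) (hv : ∀ (g : G) (e : E), v (g • e) = g • v e)
    (hd : ∀ (g : G) (e : E), d (g • e) = g • d e) {g : G} (hg : EInv v d α β g) :
    ∃ c, IsObst α β g c := by
  obtain ⟨c, h1, h2⟩ := hex.const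
    (α.comap ⟨fun x => g • x, continuous_const_smul g⟩ - α)
    (β.comap ⟨fun x => g • x, continuous_const_smul g⟩ - β) (fun e => by
      have e1 : (α.comap ⟨fun x => g • x, continuous_const_smul g⟩ - α) (v e) =
        α (g • v e) - α (v e) := rfl
      have e2 : (β.comap ⟨fun x => g • x, continuous_const_smul g⟩ - β) (d e) =
        β (g • d e) - β (d e) := rfl
      rw [e1, e2, ← hv, ← hd]
      linear_combination hg e)
  refine ⟨c, fun x => ?_, fun y => ?_⟩
  · have : α (g • x) - α x = c := h1 x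
    linear_combination this
  · have : β (g • y) - β y = c := h2 y
    linear_combination this

theorem IsObst.unique (hne : Nonempty V ∨ Nonempty D) {g : G} {c c' : ZMod n}
    (h : IsObst α β g c) (h' : IsObst α β g c') : c = c' := by
  rcases hne with ⟨⟨x⟩⟩ | ⟨⟨x⟩⟩
  · have := (h.1 x).symm.trans (h'.1 x)
    exact add_left_cancel this
  · have := (h.2 x).symm.trans (h'.2 x)
    exact add_left_cancel this

theorem IsObst.one : IsObst α β (1 : G) 0 := ⟨fun x => by simp, fun y => by simp⟩

theorem IsObst.mul {g h : G} {c c' : ZMod n} (hg : IsObst α β g c) (hh : IsObst α β h c') :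
    IsObst α β (g * h) (c + c') :=
  ⟨fun x => by rw [mul_smul, hg.1, hh.1]; ring, fun x => by rw [mul_smul, hg.2, hh.2]; ring⟩

theorem IsObst.inv {g : G} {c : ZMod n} (hg : IsObst α β g c) : IsObst α β g⁻¹ (-c) :=
  ⟨fun x => by
    have := hg.1 (g⁻¹ • x)
    rw [smul_inv_smul] at this
    rw [this]; ring, fun x => by
    have := hg.2 (g⁻¹ • x)
    rw [smul_inv_smul] at this
    rw [this]; ring⟩

theorem IsObst.pow {g : G} {c : ZMod n} (hg : IsObst α β g c) (k : ℕ) :
    IsObst α β (g ^ k) (k * c) := by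
  induction k with
  | zero => simpa using (IsObst.one (α := α) (β := β) (G := G))
  | succ k ih =>
    rw [pow_succ]
    have := ih.mul hg
    have e : (k * c + c : ZMod n) = ((k + 1 : ℕ) : ZMod n) * c := by push_cast; ring
    rwa [e] at this

theorem IsObst.eInv (hv : ∀ (g : G) (e : E), v (g • e) = g • v e)
    (hd : ∀ (g : G) (e : E), d (g • e) = g • d e) {g : G} {c : ZMod n} (hg : IsObst α β g c) :
    EInv v d α β g := fun e => by
  rw [hv, hd, hg.1, hg.2]; ring

/-- an element fixing a vertex has no obstruction -/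
theorem IsObst.eq_zero_of_fix_left {g : G} {c : ZMod n} (hg : IsObst α β g c) {x : V}
    (hx : g • x = x) : c = 0 := by
  have := hg.1 x
  rw [hx] at this
  linear_combination -this

theorem IsObst.eq_zero_of_fix_right {g : G} {c : ZMod n} (hg : IsObst α β g c) {x : D}
    (hx : g • x = x) : c = 0 := by
  have := hg.2 x
  rw [hx] at this
  linear_combination -this

/-- conjugation -/
theorem IsObst.conj {g : G} {c : ZMod n} (hg : IsObst α β g c) (h : G) :
    IsObst (α.comap ⟨fun x => h⁻¹ • x, continuous_const_smul h⁻¹⟩)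
      (β.comap ⟨fun x => h⁻¹ • x, continuous_const_smul h⁻¹⟩) (h * g * h⁻¹) c := by
  refine ⟨fun x => ?_, fun x => ?_⟩
  · change α (h⁻¹ • ((h * g * h⁻¹) • x)) = α (h⁻¹ • x) + c
    rw [← mul_smul]
    have : h⁻¹ * (h * g * h⁻¹) = g * h⁻¹ := by group
    rw [this, mul_smul, hg.1]
  · change β (h⁻¹ • ((h * g * h⁻¹) • x)) = β (h⁻¹ • x) + c
    rw [← mul_smul]
    have : h⁻¹ * (h * g * h⁻¹) = g * h⁻¹ := by group
    rw [this, mul_smul, hg.2]

open Classical in
/-- the obstruction homomorphism of an edge function on its stabilizer -/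
noncomputable def obstHom (hex : GraphExact n v d) (hv : ∀ (g : G) (e : E), v (g • e) = g • v e)
    (hd : ∀ (g : G) (e : E), d (g • e) = g • d e) (α : LocallyConstant V (ZMod n))
    (β : LocallyConstant D (ZMod n)) : stabE G v d α β →* Multiplicative (ZMod n) where
  toFun g := Multiplicative.ofAdd (exists_obst hex hv hd g.2).choose
  map_one' := by
    rw [← ofAdd_zero]
    congr 1
    exact IsObst.unique hex.nonempty (exists_obst hex hv hd (1 : stabE G v d α β).2).choose_spec
      IsObst.one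
  map_mul' g h := by
    rw [← ofAdd_add]
    congr 1
    exact IsObst.unique hex.nonempty (exists_obst hex hv hd (g * h).2).choose_spec
      ((exists_obst hex hv hd g.2).choose_spec.mul (exists_obst hex hv hd h.2).choose_spec)

theorem obstHom_spec (hex : GraphExact n v d) (hv : ∀ (g : G) (e : E), v (g • e) = g • v e)
    (hd : ∀ (g : G) (e : E), d (g • e) = g • d e) (g : stabE G v d α β) :
    IsObst α β (g : G) (Multiplicative.toAdd (obstHom hex hv hd α β g)) :=
  (exists_obst hex hv hd g.2).choose_spec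

theorem obstHom_eq_one_iff (hex : GraphExact n v d) (hv : ∀ (g : G) (e : E), v (g • e) = g • v e)
    (hd : ∀ (g : G) (e : E), d (g • e) = g • d e) (g : stabE G v d α β) :
    obstHom hex hv hd α β g = 1 ↔ (∀ x, α ((g : G) • x) = α x) ∧ ∀ y, β ((g : G) • y) = β y := by
  have hs := obstHom_spec hex hv hd g
  constructor
  · intro h
    rw [h, toAdd_one] at hs
    exact ⟨fun x => by simpa using hs.1 x, fun x => by simpa using hs.2 x⟩
  · intro h
    have h0 : IsObst α β (g : G) 0 := ⟨fun x => by simpa using h.1 x, fun x => by simpa using h.2 x⟩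
    have := IsObst.unique hex.nonempty hs h0
    rw [← toAdd_eq_zero]
    exact this

end obst

section pow

variable {V D E : Type*} [TopologicalSpace V] [TopologicalSpace D] [TopologicalSpace E]
  {v : E → V} {d : E → D}

/-- multiplication by `l`, `Z/l^n → Z/l^(n+1)` -/
def mulL (l n : ℕ) (z : ZMod (l ^ n)) : ZMod (l ^ (n + 1)) := ((l * z.val : ℕ) : ZMod (l ^ (n + 1)))

/-- division by `l` -/
def divL (l n : ℕ) (z : ZMod (l ^ (n + 1))) : ZMod (l ^ n) := ((z.val / l : ℕ) : ZMod (l ^ n))

theorem mulL_cast (l n : ℕ) [NeZero l] (k : ℕ) :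
    mulL l n (k : ZMod (l ^ n)) = ((l * k : ℕ) : ZMod (l ^ (n + 1))) := by
  unfold mulL
  have : NeZero (l ^ n) := ⟨pow_ne_zero _ (NeZero.ne l)⟩
  rw [ZMod.val_natCast, ZMod.natCast_eq_natCast_iff]
  have h := Nat.mod_modEq k (l ^ n)
  have h2 := Nat.ModEq.mul_left' (c := l) h
  rwa [← pow_succ'] at h2

theorem mulL_sub (l n : ℕ) [NeZero l] (a b : ZMod (l ^ n)) :
    mulL l n (a - b) = mulL l n a - mulL l n b := by
  have : NeZero (l ^ n) := ⟨pow_ne_zero _ (NeZero.ne l)⟩
  have key : mulL l n ((a - b) + b) = mulL l n (a - b) + mulL l n b := by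
    rw [← ZMod.natCast_zmod_val (a - b), ← ZMod.natCast_zmod_val b, ← Nat.cast_add, mulL_cast,
      mulL_cast, mulL_cast, mul_add, Nat.cast_add]
  rw [sub_add_cancel] at key
  rw [key]; ring

theorem mulL_inj (l n : ℕ) [NeZero l] {a b : ZMod (l ^ n)} (h : mulL l n a = mulL l n b) :
    a = b := by
  have : NeZero (l ^ n) := ⟨pow_ne_zero _ (NeZero.ne l)⟩
  rw [← ZMod.natCast_zmod_val a, ← ZMod.natCast_zmod_val b]
  unfold mulL at h
  rw [ZMod.natCast_eq_natCast_iff] at h ⊢
  rw [pow_succ'] at h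
  exact Nat.ModEq.mul_left_cancel' (NeZero.ne l) h

theorem mulL_divL (l n : ℕ) [NeZero l] (z : ZMod (l ^ (n + 1)))
    (hz : ZMod.castHom (dvd_pow_self l (Nat.succ_ne_zero n)) (ZMod l) z = 0) :
    mulL l n (divL l n z) = z := by
  have : NeZero (l ^ (n + 1)) := ⟨pow_ne_zero _ (NeZero.ne l)⟩
  have h1 : l ∣ z.val := by
    rw [← ZMod.natCast_eq_zero_iff]
    have := ZMod.natCast_zmod_val z
    rw [← this, map_natCast] at hz
    exact hz
  unfold divL
  rw [mulL_cast, Nat.mul_div_cancel' h1, ZMod.natCast_zmod_val]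

theorem GraphExact.pow {l : ℕ} [NeZero l] (hvc : Continuous v) (hdc : Continuous d)
    (hex : GraphExact l v d) (n : ℕ) : GraphExact (l ^ n) v d := by
  induction n with
  | zero =>
    refine ⟨hex.nonempty, fun γ => ⟨0, 0, fun e => ?_⟩, fun α β _ => ⟨0, fun x => ?_, fun x => ?_⟩⟩
    all_goals
      have : Subsingleton (ZMod (l ^ 0)) := by rw [pow_zero]; infer_instance
      exact Subsingleton.elim _ _
  | succ n ih =>
    have : NeZero (l ^ n) := ⟨pow_ne_zero _ (NeZero.ne l)⟩
    have : NeZero (l ^ (n + 1)) := ⟨pow_ne_zero _ (NeZero.ne l)⟩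
    let π := ZMod.castHom (dvd_pow_self l (Nat.succ_ne_zero n)) (ZMod l)
    let σ : ZMod l → ZMod (l ^ (n + 1)) := fun z => (z.val : ℕ)
    have hσ : ∀ z, π (σ z) = z := fun z => by
      change π ((z.val : ℕ) : ZMod (l ^ (n + 1))) = z
      rw [map_natCast, ZMod.natCast_zmod_val]
    refine ⟨hex.nonempty, fun γ => ?_, fun α β hαβ => ?_⟩
    · obtain ⟨α1, β1, h1⟩ := hex.surj (γ.map π)
      let γ1 : LocallyConstant E (ZMod (l ^ (n + 1))) :=
        γ - (α1.map σ).comap ⟨v, hvc⟩ + (β1.map σ).comap ⟨d, hdc⟩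
      have hγ1 : ∀ e, γ1 e = γ e - σ (α1 (v e)) + σ (β1 (d e)) := fun e => rfl
      have hγπ : ∀ e, π (γ1 e) = 0 := fun e => by
        have : π (γ e) = α1 (v e) - β1 (d e) := h1 e
        rw [hγ1, map_add, map_sub, hσ, hσ, this]; ring
      obtain ⟨α2, β2, h2⟩ := ih.surj (γ1.map (divL l n))
      refine ⟨α1.map σ + α2.map (mulL l n), β1.map σ + β2.map (mulL l n), fun e => ?_⟩
      have e1 : (α1.map σ + α2.map (mulL l n)) (v e) = σ (α1 (v e)) + mulL l n (α2 (v e)) := rfl
      have e2 : (β1.map σ + β2.map (mulL l n)) (d e) = σ (β1 (d e)) + mulL l n (β2 (d e)) := rfl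
      have e3 : divL l n (γ1 e) = α2 (v e) - β2 (d e) := h2 e
      have e4 := congrArg (mulL l n) e3
      rw [mulL_divL l n _ (hγπ e), mulL_sub, hγ1] at e4
      rw [e1, e2]
      linear_combination e4
    · obtain ⟨c1, hc1, hc2⟩ := hex.const (α.map π) (β.map π) (fun e => by
        change π (α (v e)) = π (β (d e))
        rw [hαβ])
      have hc1' : ∀ x, π (α x - σ c1) = 0 := fun x => by
        have : π (α x) = c1 := hc1 x
        rw [map_sub, hσ, this, sub_self]
      have hc2' : ∀ x, π (β x - σ c1) = 0 := fun x => by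
        have : π (β x) = c1 := hc2 x
        rw [map_sub, hσ, this, sub_self]
      obtain ⟨c, h3, h4⟩ := ih.const (α.map (fun z => divL l n (z - σ c1)))
        (β.map (fun z => divL l n (z - σ c1))) (fun e => by
          change divL l n (α (v e) - σ c1) = divL l n (β (d e) - σ c1)
          rw [hαβ])
      refine ⟨σ c1 + mulL l n c, fun x => ?_, fun x => ?_⟩
      · have h5 : divL l n (α x - σ c1) = c := h3 x
        have h6 := mulL_divL l n _ (hc1' x)
        rw [h5] at h6
        rw [h6]; ring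
      · have h5 : divL l n (β x - σ c1) = c := h4 x
        have h6 := mulL_divL l n _ (hc2' x)
        rw [h5] at h6
        rw [h6]; ring

end pow

section weights

variable {l : ℕ} [hl : Fact l.Prime] {G V D E : Type*} [Group G] [TopologicalSpace G]
  [IsTopologicalGroup G] [CompactSpace G]
  [TopologicalSpace V] [TopologicalSpace D]
  [TopologicalSpace E] [CompactSpace E]
  [MulAction G V] [ContinuousConstSMul G V] [MulAction G D] [ContinuousConstSMul G D]
  [MulAction G E] [ContinuousSMul G E]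

/-- the stabilizer of a locally constant function is open -/
theorem isOpen_stab {Y : Type*} (f : LocallyConstant E Y) :
    ∃ U : Subgroup G, IsOpen (U : Set G) ∧ ∀ g ∈ U, ∀ e, f (g • e) = f e := by
  classical
  let U : Subgroup G :=
    { carrier := {g | ∀ e, f (g • e) = f e}
      one_mem' := fun e => by simp
      mul_mem' := fun {a b} ha hb e => by rw [mul_smul, ha, hb]
      inv_mem' := fun {a} ha e => by
        have := ha (a⁻¹ • e)
        rw [smul_inv_smul] at this
        exact this.symm }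
  refine ⟨U, ?_, fun g hg => hg⟩
  refine Subgroup.isOpen_of_mem_nhds U (g := 1) ?_
  -- tube lemma
  have hopen : IsOpen {p : G × E | f (p.1 • p.2) = f p.2} := by
    have h1 : IsLocallyConstant (fun p : G × E => (f (p.1 • p.2), f p.2)) := by
      have a : IsLocallyConstant (fun p : G × E => f (p.1 • p.2)) :=
        f.isLocallyConstant.comp_continuous continuous_smul
      have b : IsLocallyConstant (fun p : G × E => f p.2) :=
        f.isLocallyConstant.comp_continuous continuous_snd
      exact a.prodMk b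
    exact h1 {q | q.1 = q.2}
  have htube := generalized_tube_lemma (isCompact_singleton (x := (1 : G)))
    (isCompact_univ (X := E)) hopen (by rintro ⟨g, e⟩ ⟨hg, -⟩; simp at hg; simp [hg])
  obtain ⟨A, B, hA, hB, h1A, hB', hAB⟩ := htube
  refine Filter.mem_of_superset (hA.mem_nhds (h1A rfl)) (fun g hg e => ?_)
  have := @hAB (g, e) ⟨hg, hB' trivial⟩
  exact this

theorem exists_pow_mem_open (U : Subgroup G) (hU : IsOpen (U : Set G)) (g : G) :
    ∃ j : ℕ, 0 < j ∧ g ^ j ∈ U := by
  have : Finite (G ⧸ U) := Subgroup.quotient_finite_of_isOpen U hU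
  have : U.FiniteIndex := Subgroup.finiteIndex_of_finite_quotient
  obtain ⟨j, hj, hj2⟩ := Subgroup.exists_pow_mem_of_index_ne_zero this.index_ne_zero g
  exact ⟨j, hj, hj2.2⟩

theorem conj_pow_pow {φ u : G} {Q : ℕ} (hrel : φ * u * φ⁻¹ = u ^ Q) (j : ℕ) :
    φ ^ j * u * (φ ^ j)⁻¹ = u ^ (Q ^ j) := by
  induction j with
  | zero => simp
  | succ j ih =>
    have : φ ^ (j + 1) * u * (φ ^ (j + 1))⁻¹ = φ * (φ ^ j * u * (φ ^ j)⁻¹) * φ⁻¹ := by
      rw [pow_succ']; group
    rw [this, ih, ← conj_pow, hrel, ← pow_mul, pow_succ']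

theorem weight {v : E → V} {d : E → D} (hvc : Continuous v) (hdc : Continuous d)
    (hex : GraphExact l v d) (hv : ∀ (g : G) (e : E), v (g • e) = g • v e)
    (hd : ∀ (g : G) (e : E), d (g • e) = g • d e) {u φ : G} {Q : ℕ} (hQ : 1 < Q)
    (hrel : φ * u * φ⁻¹ = u ^ Q) {α : LocallyConstant V (ZMod l)}
    {β : LocallyConstant D (ZMod l)}
    (hinv : EInv v d α β u) : (∀ x, α (u • x) = α x) ∧ ∀ y, β (u • y) = β y := by
  have : NeZero l := ⟨hl.out.ne_zero⟩
  let e0 : LocallyConstant E (ZMod l) := α.comap ⟨v, hvc⟩ - β.comap ⟨d, hdc⟩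
  have he0 : ∀ e, e0 e = α (v e) - β (d e) := fun e => rfl
  obtain ⟨U, hU, hUe⟩ := isOpen_stab (G := G) e0
  obtain ⟨j, hj, hjU⟩ := exists_pow_mem_open U hU φ
  obtain ⟨n, hn⟩ : ∃ n, n = Q ^ j := ⟨_, rfl⟩
  have hQj : 1 < Q ^ j := Nat.one_lt_pow (by omega) hQ
  have hln : Q ^ j - 1 < l ^ n := by
    have h1 : n < l ^ n := Nat.lt_pow_self hl.out.one_lt
    omega
  have hn0 : n ≠ 0 := by omega
  have : NeZero (l ^ n) := ⟨pow_ne_zero _ (NeZero.ne l)⟩
  let π := ZMod.castHom (dvd_pow_self l hn0) (ZMod l)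
  let σ : ZMod l → ZMod (l ^ n) := fun z => (z.val : ℕ)
  have hσ : ∀ z, π (σ z) = z := fun z => by
    change π ((z.val : ℕ) : ZMod (l ^ n)) = z
    rw [map_natCast, ZMod.natCast_zmod_val]
  have hexn := hex.pow hvc hdc n
  obtain ⟨αn, βn, hn1⟩ := hexn.surj (e0.map σ)
  have hn1' : ∀ e, σ (e0 e) = αn (v e) - βn (d e) := hn1
  have hin : ∀ g : G, (∀ e, e0 (g • e) = e0 e) → EInv v d αn βn g := fun g hg e => by
    rw [← hn1', ← hn1', hg]
  obtain ⟨cu, hcu⟩ := exists_obst hexn hv hd (hin u (fun e => hinv e))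
  obtain ⟨cφ, hcφ⟩ := exists_obst hexn hv hd (hin (φ ^ j) (fun e => hUe _ hjU e))
  have h1 := (hcφ.mul hcu).mul hcφ.inv
  rw [conj_pow_pow hrel] at h1
  have h2 := hcu.pow (Q ^ j)
  have h3 := IsObst.unique hexn.nonempty h1 h2
  -- `(Q^j - 1) * cu = 0`
  have h4 : ((Q ^ j - 1 : ℕ) : ZMod (l ^ n)) * cu = 0 := by
    rw [Nat.cast_sub hQj.le]
    linear_combination -h3
  have h5 : π cu = 0 := by
    by_contra hne
    have hval : (cu.val : ZMod l) ≠ 0 := by
      have := ZMod.natCast_zmod_val cu
      rw [← this, map_natCast] at hne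
      exact hne
    have hcop : Nat.Coprime (l ^ n) cu.val := by
      apply Nat.Coprime.pow_left
      rw [Nat.Prime.coprime_iff_not_dvd hl.out]
      rwa [Ne, ZMod.natCast_eq_zero_iff] at hval
    have h6 : l ^ n ∣ (Q ^ j - 1) * cu.val := by
      rw [← ZMod.natCast_eq_zero_iff, Nat.cast_mul, ZMod.natCast_zmod_val]
      exact h4
    have h7 := hcop.dvd_of_dvd_mul_right h6
    have h8 := Nat.le_of_dvd (by omega) h7
    omega
  obtain ⟨c0, hc1, hc2⟩ := hex.const (α - αn.map π) (β - βn.map π) (fun e => by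
    change α (v e) - π (αn (v e)) = β (d e) - π (βn (d e))
    have h6 := congrArg π (hn1' e)
    rw [hσ, map_sub, he0] at h6
    linear_combination h6)
  refine ⟨fun x => ?_, fun x => ?_⟩
  · have e1 : α (u • x) - π (αn (u • x)) = c0 := hc1 (u • x)
    have e2 : α x - π (αn x) = c0 := hc1 x
    rw [hcu.1, map_add, h5] at e1
    linear_combination e1 - e2
  · have e1 : β (u • x) - π (βn (u • x)) = c0 := hc2 (u • x)
    have e2 : β x - π (βn x) = c0 := hc2 x
    rw [hcu.2, map_add, h5] at e1
    linear_combination e1 - e2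

/-- the hypothesis of `SmithPro` for a subgroup `P` normalised by `φ` with weight `Q` -/
theorem hvan_of_weight {v : E → V} {d : E → D} (hvc : Continuous v) (hdc : Continuous d)
    (hex : GraphExact l v d) (hv : ∀ (g : G) (e : E), v (g • e) = g • v e)
    (hd : ∀ (g : G) (e : E), d (g • e) = g • d e) (P : Subgroup G) {φ : G} {Q : ℕ} (hQ : 1 < Q)
    (hrel : ∀ u ∈ P, φ * u * φ⁻¹ = u ^ Q) (U : Subgroup P) (α : LocallyConstant V (ZMod l))
    (β : LocallyConstant D (ZMod l))
    (h : ∀ u ∈ U, ∀ e, α (v (u • e)) - β (d (u • e)) = α (v e) - β (d e)) :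
    ∀ u ∈ U, (∀ x, α (u • x) = α x) ∧ ∀ y, β (u • y) = β y := by
  intro u hu
  exact weight (u := (u : G)) hvc hdc hex hv hd hQ (hrel u u.2) (fun e => h u hu e)

end weights

end P025H505
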