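import Vale.Agent.P025.H641.Sec
import Vale.Agent.P025.H641.Tower
import Vale.Agent.P025.H641.Every
import Vale.Agent.P025.R2.H722.CpAct

/-!
P025: the objects of H641 (`constClosure k K`, `maxUnr k K`, a section) as data for the profinite
graph of H720.
-/

namespace P025H505

open P025H641 P025H720 P025H722 IntermediateField Cardinal

universe u v w

section algebra

variable {k : Type u} {K : Type v} [Field k] [Field K] [Algebra k K] [CharZero k]

/-- the inclusion of the constants in the maximal unramified extension -/
noncomputable def constInc (k : Type u) (K : Type v) [Field k] [Field K] [Algebra k K]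
    [CharZero k] : constClosure k K →+* maxUnr k K where
  toFun c := ⟨c, mem_maxUnr_of_const _ (mem_algebraicClosure_iff.1 c.2).isIntegral⟩
  map_one' := rfl
  map_zero' := rfl
  map_mul' _ _ := rfl
  map_add' _ _ := rfl

noncomputable instance constAlg : Algebra (constClosure k K) (maxUnr k K) :=
  (constInc k K).toAlgebra

theorem coe_constAlg (c : constClosure k K) :
    ((algebraMap (constClosure k K) (maxUnr k K) c : maxUnr k K) : AlgebraicClosure K) = c := rfl

instance constAlgClosed : IsAlgClosed (constClosure k K) :=
  IsAlgClosure.isAlgClosed k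

instance constGalois : IsGalois k (constClosure k K) := by
  have : Algebra.IsAlgebraic k (constClosure k K) := inferInstance
  have : Algebra.IsSeparable k (constClosure k K) := inferInstance
  have : Normal k (constClosure k K) := inferInstance
  exact ⟨⟩

instance constTower : IsScalarTower k (constClosure k K) (maxUnr k K) :=
  IsScalarTower.of_algebraMap_eq fun c => Subtype.ext rfl

end algebra

section padic

variable {p : ℕ} [Fact p.Prime] {k : Type u} {K : Type v} [Field k] [Field K] [Algebra k K]
  [Algebra ℚ_[p] k]

/-- the structure of the constants over `ℚ_p` -/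
noncomputable instance constQp : Algebra ℚ_[p] (constClosure k K) :=
  ((algebraMap k (constClosure k K)).comp (algebraMap ℚ_[p] k)).toAlgebra

instance constQpTower : IsScalarTower ℚ_[p] k (constClosure k K) :=
  IsScalarTower.of_algebraMap_eq fun _ => rfl

instance constQpAlg [Algebra.IsAlgebraic ℚ_[p] k] : Algebra.IsAlgebraic ℚ_[p] (constClosure k K) :=
  Algebra.IsAlgebraic.trans ℚ_[p] k (constClosure k K)

instance constComm : SMulCommClass Gal(constClosure k K/k) ℚ_[p] (constClosure k K) where
  smul_comm σ a x := by
    rw [Algebra.smul_def, Algebra.smul_def, smul_mul']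
    congr 1
    exact σ.commutes _

instance constOpen : OpenStab Gal(constClosure k K/k) (constClosure k K) where
  isOpen x := stabilizer_isOpen_of_isIntegral x

end padic

section action

variable {k : Type u} {K : Type v} [Field k] [Field K] [Algebra k K] [CharZero k]

/-- the action of the Galois group on `maxUnr k K` through a section -/
@[reducible] noncomputable def secAction (s : Gal(constClosure k K/k) →* Gal(maxUnr k K/K)) :
    MulSemiringAction Gal(constClosure k K/k) (maxUnr k K) :=
  MulSemiringAction.compHom (maxUnr k K) s

variable {s : Gal(constClosure k K/k) →* Gal(maxUnr k K/K)}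

theorem secAction_smul (σ : Gal(constClosure k K/k)) (x : maxUnr k K) :
    let _ := secAction s
    σ • x = s σ x := rfl

theorem secEqui (hs : IsSection k K s) :
    let _ := secAction s
    Equi Gal(constClosure k K/k) (constClosure k K) (maxUnr k K) := by
  letI := secAction s
  refine ⟨fun σ c => ?_⟩
  apply Subtype.ext
  exact (hs.lifts σ c (algebraMap (constClosure k K) (maxUnr k K) c) rfl).symm

theorem secOpen (hs : IsSection k K s) :
    let _ := secAction s
    OpenStab Gal(constClosure k K/k) (maxUnr k K) := by
  letI := secAction s
  refine ⟨fun x => ?_⟩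
  have h1 : IsOpen ((MulAction.stabilizer Gal(maxUnr k K/K) x : Subgroup Gal(maxUnr k K/K)) :
      Set Gal(maxUnr k K/K)) := stabilizer_isOpen_of_isIntegral x
  exact h1.preimage hs.continuous

end action

section trdeg

open scoped IntermediateField.algebraAdjoinAdjoin

variable {k : Type u} {K : Type v} [Field k] [Field K] [Algebra k K] [CharZero k]

theorem alg_adjoin {kb N : Type*} [Field kb] [Field N] [Algebra kb N] (t : N)
    (h : Algebra.IsAlgebraic kb⟮t⟯ N) : Algebra.IsAlgebraic (Algebra.adjoin kb ({t} : Set N)) N := by
  have h1 : Algebra.IsAlgebraic (Algebra.adjoin kb ({t} : Set N)) kb⟮t⟯ := inferInstance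
  exact (IsFractionRing.comap_isAlgebraic_iff (A := Algebra.adjoin kb ({t} : Set N))
    (K := kb⟮t⟯) (C := N)).2 h

theorem trdegOne (hE : IsFunctionField k K) : TrdegOne (constClosure k K) (maxUnr k K) := by
  obtain ⟨t, ht, hfin⟩ := hE
  set kb := constClosure k K with hkb
  set N := maxUnr k K with hN
  let t' : N := algebraMap K N t
  -- `N` is algebraic over `kb[t]`
  have h1 : Algebra.IsAlgebraic (Algebra.adjoin kb ({t'} : Set N)) N := by
    have h3 : ∀ y : K, IsAlgebraic kb⟮t'⟯ (algebraMap K N y) := by
      intro y
      have h4 : IsAlgebraic k⟮t⟯ y := Algebra.IsAlgebraic.isAlgebraic y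
      -- the embedding of `k(t)`
      have h5 : ∀ z ∈ k⟮t⟯, algebraMap K N z ∈ kb⟮t'⟯ := by
        intro z hz
        induction hz using IntermediateField.adjoin_induction with
        | mem z hz =>
          rw [Set.mem_singleton_iff] at hz
          subst hz
          exact IntermediateField.mem_adjoin_simple_self kb t'
        | algebraMap z =>
          have : algebraMap K N (algebraMap k K z) = algebraMap kb N (algebraMap k kb z) := by
            rw [← IsScalarTower.algebraMap_apply, ← IsScalarTower.algebraMap_apply]
          rw [this]
          exact IntermediateField.algebraMap_mem _ _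
        | add a b _ _ ha hb => rw [map_add]; exact add_mem ha hb
        | mul a b _ _ ha hb => rw [map_mul]; exact mul_mem ha hb
        | inv a _ ha => rw [map_inv₀]; exact inv_mem ha
      let f : k⟮t⟯ →+* kb⟮t'⟯ :=
        ((algebraMap K N).comp (algebraMap k⟮t⟯ K)).codRestrict kb⟮t'⟯.toSubfield
          (fun z => h5 z z.2)
      exact h4.ringHom_of_comp_eq f (algebraMap K N) f.injective (by ext a; rfl)
    have h6 : Algebra.IsAlgebraic kb⟮t'⟯ N := by
      constructor
      intro x
      let F := algebraicClosure kb⟮t'⟯ N
      have h7 : IsAlgebraic F x := by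
        have hx : IsAlgebraic K x := Algebra.IsAlgebraic.isAlgebraic x
        let g : K →+* F := (algebraMap K N).codRestrict F.toSubfield
          (fun y => mem_algebraicClosure_iff.2 (h3 y))
        exact hx.ringHom_of_comp_eq g (RingHom.id N) g.injective (by ext a; rfl)
      have h8 : Algebra.IsAlgebraic kb⟮t'⟯ F := inferInstance
      exact h7.restrictScalars kb⟮t'⟯
    exact alg_adjoin t' h6
  have h2 : Algebra.trdeg kb N ≤ 1 := by
    have := Algebra.IsAlgebraic.trdeg_le_cardinalMk kb ({t'} : Set N)
    simpa using this
  refine ⟨fun T x hT => ?_⟩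
  have h3 : AlgebraicIndependent kb (fun _ : Unit => T) := by
    rw [algebraicIndependent_unique_type_iff]
    exact hT
  have h4 := h3.isTranscendenceBasis_of_lift_trdeg_le_of_finite (by simpa using h2)
  have h5 := h4.isAlgebraic.isAlgebraic x
  rwa [Set.range_const] at h5

end trdeg

end P025H505
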