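import Vale.Agent.P025.R2.H505.SecInst
import Vale.Agent.P025.R2.H206.Ext

/-!
P025: the objects of H641 with the action of the Galois group of a finite extension `k'` of `k`.
-/

namespace P025H505

open P025H641 P025H720 P025H722 P025H206 IntermediateField

universe u v w

section general

theorem continuous_restrictScalarsHom {k k' Ω : Type*} [Field k] [Field k'] [Field Ω] [Algebra k k']
    [Algebra k' Ω] [Algebra k Ω] [IsScalarTower k k' Ω] [Algebra.IsIntegral k' Ω] :
    Continuous (AlgEquiv.restrictScalarsHom k : Gal(Ω/k') →* Gal(Ω/k)) := by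
  refine continuous_of_continuousAt_one _ ?_
  rw [ContinuousAt, map_one, Filter.tendsto_def]
  intro U hU
  obtain ⟨F, hF, hFU⟩ := (krullTopology_mem_nhds_one_iff k Ω U).1 hU
  let b := Module.finBasis k F
  have h1 : (⋂ i, (MulAction.stabilizer Gal(Ω/k') (b i : Ω) : Set Gal(Ω/k'))) ∈
      nhds (1 : Gal(Ω/k')) := by
    refine (isOpen_iInter_of_finite fun i => ?_).mem_nhds ?_
    · exact stabilizer_isOpen_of_isIntegral _
    · simp
  filter_upwards [h1] with σ hσ
  apply hFU
  rw [SetLike.mem_coe, IntermediateField.mem_fixingSubgroup_iff]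
  intro x hx
  have h2 := b.sum_repr ⟨x, hx⟩
  have h3 := congrArg (fun z : F => (z : Ω)) h2
  simp only [] at h3
  have h4 : ∀ i, σ (b i : Ω) = b i := fun i => by
    have := Set.mem_iInter.1 hσ i
    exact this
  rw [← h3]
  simp only [AddSubmonoidClass.coe_finsetSum, AlgEquiv.restrictScalarsHom_apply,
    AlgEquiv.restrictScalars_apply, map_sum]
  refine Finset.sum_congr rfl fun i _ => ?_
  rw [IntermediateField.coe_smul, Algebra.smul_def, map_mul, h4,
    IsScalarTower.algebraMap_apply k k' Ω, AlgEquiv.commutes]

end general

section kprime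

variable (k : Type u) (K : Type v) [Field k] [CharZero k] [Field K] [Algebra k K]
  (k' : Type w) [Field k'] [Algebra k k'] [Algebra.IsAlgebraic k k'] [Algebra k' (maxUnr k K)]
  [IsScalarTower k k' (maxUnr k K)]

/-- `k'` is contained in the constants -/
noncomputable def incK : k' →+* constClosure k K :=
  ((algebraMap (maxUnr k K) (AlgebraicClosure K)).comp
    (algebraMap k' (maxUnr k K))).codRestrict (constClosure k K).toSubfield.toSubring
      (fun c => by
        have h : IsIntegral k c := (Algebra.IsAlgebraic.isAlgebraic c).isIntegral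
        exact mem_algebraicClosure_iff.2 (isIntegral_coe.2 h.algebraMap).isAlgebraic)

theorem incK_coe (c : k') : ((incK k K k' c : constClosure k K) : AlgebraicClosure K) =
    (algebraMap k' (maxUnr k K) c : maxUnr k K) := rfl

/-- the constants as an algebra over `k'` -/
@[reducible] noncomputable def algK : Algebra k' (constClosure k K) :=
  (incK k K k').toAlgebra

theorem towerK : @IsScalarTower k k' (constClosure k K) _ (algK k K k').toSMul _ := by
  let _ := algK k K k'
  refine IsScalarTower.of_algebraMap_eq fun c => Subtype.ext ?_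
  change _ = ((algebraMap k' (maxUnr k K) (algebraMap k k' c) : maxUnr k K) : AlgebraicClosure K)
  rw [← IsScalarTower.algebraMap_apply]
  rfl

theorem towerN : @IsScalarTower k' (constClosure k K) (maxUnr k K) (algK k K k').toSMul _ _ := by
  let _ := algK k K k'
  exact IsScalarTower.of_algebraMap_eq fun c => rfl

theorem galK : @IsGalois k' _ (constClosure k K) _ (algK k K k') := by
  let _ := algK k K k'
  have := towerK k K k'
  exact IsGalois.tower_top_of_isGalois k k' (constClosure k K)

end kprime

section action

variable {k : Type u} {K : Type v} [Field k] [CharZero k] [Field K] [Algebra k K]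
  (k' : Type w) [Field k'] [Algebra k k'] [Algebra.IsAlgebraic k k'] [Algebra k' (maxUnr k K)]
  [IsScalarTower k k' (maxUnr k K)]

attribute [local instance 10] algK

attribute [local instance 10] towerK galK

/-- restriction of the base field -/
noncomputable def resGal : Gal(constClosure k K/k') →* Gal(constClosure k K/k) :=
  AlgEquiv.restrictScalarsHom k

theorem resGal_apply (σ : Gal(constClosure k K/k')) (x : constClosure k K) :
    resGal k' σ x = σ x := rfl

theorem resGal_continuous : Continuous (resGal k' : Gal(constClosure k K/k') →* _) :=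
  continuous_restrictScalarsHom

variable (s : Gal(constClosure k K/k) →* Gal(maxUnr k K/K))

variable {s} in
theorem resGal_mem (hs : IsSection k K s) (σ : Gal(constClosure k K/k')) :
    resGal k' σ ∈ fixC k' s := by
  rw [mem_fixC]
  intro c
  apply Subtype.ext
  have h := hs.lifts (resGal k' σ) (incK k K k' c) (algebraMap k' (maxUnr k K) c) rfl
  rw [← h, resGal_apply]
  have h2 : σ (incK k K k' c) = incK k K k' c := σ.commutes c
  rw [h2]
  rfl

variable {s} in
theorem exists_resGal (hs : IsSection k K s) {σ : Gal(constClosure k K/k)} (hσ : σ ∈ fixC k' s) :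
    ∃ τ : Gal(constClosure k K/k'), resGal k' τ = σ := by
  rw [mem_fixC] at hσ
  have h1 : ∀ c : k', σ (algebraMap k' (constClosure k K) c) =
      algebraMap k' (constClosure k K) c := by
    intro c
    apply Subtype.ext
    have h := hs.lifts σ (incK k K k' c) (algebraMap k' (maxUnr k K) c) rfl
    rw [hσ c] at h
    exact h
  refine ⟨{ (σ : constClosure k K ≃+* constClosure k K) with commutes' := h1 }, ?_⟩
  ext x
  rfl

/-- the action of `Gal(kb/k')` on `maxUnr k K` through a section -/
@[reducible] noncomputable def secActionK : MulSemiringAction Gal(constClosure k K/k')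
    (maxUnr k K) :=
  MulSemiringAction.compHom (maxUnr k K) (s.comp (resGal k'))

theorem secActionK_smul (σ : Gal(constClosure k K/k')) (x : maxUnr k K) :
    let _ := secActionK k' s
    σ • x = s (resGal k' σ) x := rfl

variable {s}

theorem secEquiK (hs : IsSection k K s) :
    let _ := secActionK k' s
    Equi Gal(constClosure k K/k') (constClosure k K) (maxUnr k K) := by
  let _ := secActionK k' s
  refine ⟨fun σ c => ?_⟩
  apply Subtype.ext
  exact (hs.lifts (resGal k' σ) c (algebraMap (constClosure k K) (maxUnr k K) c) rfl).symm

theorem secOpenK (hs : IsSection k K s) :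
    let _ := secActionK k' s
    OpenStab Gal(constClosure k K/k') (maxUnr k K) := by
  let _ := secActionK k' s
  refine ⟨fun x => ?_⟩
  have h1 : IsOpen ((MulAction.stabilizer Gal(maxUnr k K/K) x : Subgroup Gal(maxUnr k K/K)) :
      Set Gal(maxUnr k K/K)) := stabilizer_isOpen_of_isIntegral x
  exact h1.preimage (hs.continuous.comp (resGal_continuous k'))

/-- an element fixed by `s(fixC k')` is fixed by the action -/
theorem secFixed (hs : IsSection k K s) {T : maxUnr k K} (hT : ∀ σ ∈ fixC k' s, s σ T = T) :
    let _ := secActionK k' s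
    FixedT Gal(constClosure k K/k') T := by
  let _ := secActionK k' s
  exact ⟨fun σ => hT _ (resGal_mem k' hs σ)⟩

/-- an element fixed by the action is fixed by `s(fixC k')` -/
theorem secFixed' (hs : IsSection k K s) {T : maxUnr k K}
    (hT : let _ := secActionK k' s; ∀ σ : Gal(constClosure k K/k'), σ • T = T) :
    ∀ σ ∈ fixC k' s, s σ T = T := by
  intro σ hσ
  obtain ⟨τ, rfl⟩ := exists_resGal k' hs hσ
  exact hT τ

section padic

variable {p : ℕ} [Fact p.Prime] [Algebra ℚ_[p] k] [Algebra ℚ_[p] k'] [IsScalarTower ℚ_[p] k k']

theorem constQpTowerK : IsScalarTower ℚ_[p] k' (constClosure k K) := by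
  refine IsScalarTower.of_algebraMap_eq fun c => ?_
  have h1 : algebraMap k' (constClosure k K) (algebraMap ℚ_[p] k' c) =
      algebraMap k' (constClosure k K) (algebraMap k k' (algebraMap ℚ_[p] k c)) := by
    rw [← IsScalarTower.algebraMap_apply ℚ_[p] k k']
  rw [h1, ← IsScalarTower.algebraMap_apply k k' (constClosure k K)]
  rfl

theorem constCommK : SMulCommClass Gal(constClosure k K/k') ℚ_[p] (constClosure k K) := by
  have := constQpTowerK (k := k) (K := K) k' (p := p)
  refine ⟨fun σ a x => ?_⟩
  rw [Algebra.smul_def, Algebra.smul_def, smul_mul']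
  congr 1
  rw [IsScalarTower.algebraMap_apply ℚ_[p] k' (constClosure k K)]
  exact σ.commutes _

theorem constOpenK : OpenStab Gal(constClosure k K/k') (constClosure k K) :=
  ⟨fun x => stabilizer_isOpen_of_isIntegral x⟩

end padic

end action

end P025H505
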