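import Mathlib

/-!
P025, row A-SMITH: one step of Smith theory (an automorphism of prime order `q` of a bipartite
profinite graph with `0 → F_q → C(V) ⊕ C(D) → C(E) → 0` exact).
-/

namespace P025H505

open Finset

/-- exactness of `0 → F_q → C(V) ⊕ C(D) → C(E) → 0` for a bipartite graph `(v, d) : E → V × D` -/
structure GraphExact (q : ℕ) {V D E : Type*} [TopologicalSpace V] [TopologicalSpace D]
    [TopologicalSpace E] (v : E → V) (d : E → D) : Prop where
  nonempty : Nonempty V ∨ Nonempty D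
  surj : ∀ γ : LocallyConstant E (ZMod q), ∃ (α : LocallyConstant V (ZMod q))
    (β : LocallyConstant D (ZMod q)), ∀ e, γ e = α (v e) - β (d e)
  const : ∀ (α : LocallyConstant V (ZMod q)) (β : LocallyConstant D (ZMod q)),
    (∀ e, α (v e) = β (d e)) → ∃ c, (∀ x, α x = c) ∧ (∀ y, β y = c)

section one

set_option linter.unusedSectionVars false

variable {q : ℕ} [hq : Fact q.Prime] {X : Type*} [TopologicalSpace X]

/-- norm of a locally constant function along `s` -/
noncomputable def nrm (q : ℕ) {s : X → X} (hs : Continuous s) (f : LocallyConstant X (ZMod q)) :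
    LocallyConstant X (ZMod q) :=
  ∑ i ∈ range q, f.comap ⟨s^[i], hs.iterate i⟩

theorem nrm_apply {s : X → X} (hs : Continuous s) (f : LocallyConstant X (ZMod q)) (x : X) :
    nrm q hs f x = ∑ i ∈ range q, f (s^[i] x) := by
  classical
  unfold nrm
  have : ∀ t : Finset ℕ, (∑ i ∈ t, f.comap ⟨s^[i], hs.iterate i⟩ : LocallyConstant X (ZMod q)) x
      = ∑ i ∈ t, f (s^[i] x) := by
    intro t
    induction t using Finset.induction_on with
    | empty => simp
    | insert a t ha ih => rw [sum_insert ha, sum_insert ha, LocallyConstant.add_apply, ih]; simp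
  exact this _

theorem sum_iter {s : X → X} (hsq : ∀ x, s^[q] x = x) (f : X → ZMod q) (x : X) :
    ∑ i ∈ range q, f (s^[i] (s x)) = ∑ i ∈ range q, f (s^[i] x) := by
  have h1 : ∀ i, s^[i] (s x) = s^[i+1] x := fun i => (Function.iterate_succ_apply s i x).symm
  simp only [h1]
  have h2 := Finset.sum_range_succ (fun i => f (s^[i] x)) q
  have h3 := Finset.sum_range_succ' (fun i => f (s^[i] x)) q
  rw [h2] at h3
  simp only [Function.iterate_zero, id_eq, hsq] at h3
  have := add_right_cancel h3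
  exact this.symm

/-- `∑ (a+i)^(q-1) = -1` -/
theorem sum_pow (a : ZMod q) : ∑ i ∈ range q, (a + (i : ZMod q)) ^ (q - 1) = -1 := by
  classical
  have hq0 : q ≠ 0 := hq.out.ne_zero
  have : NeZero q := ⟨hq0⟩
  have h1 : ∑ i ∈ range q, (a + (i : ZMod q)) ^ (q - 1) = ∑ x : ZMod q, (a + x) ^ (q - 1) := by
    symm
    rw [← Finset.sum_image (s := range q) (g := fun i : ℕ => (i : ZMod q))
      (f := fun x : ZMod q => (a + x) ^ (q - 1))]
    · congr 1
      ext x
      simp only [mem_univ, mem_image, mem_range, true_iff]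
      exact ⟨x.val, ZMod.val_lt x, ZMod.natCast_zmod_val x⟩
    · intro i hi j hj hij
      have := congrArg ZMod.val hij
      simp only at this
      rwa [ZMod.val_natCast_of_lt (by simpa using hi), ZMod.val_natCast_of_lt (by simpa using hj)]
        at this
  rw [h1]
  rw [Fintype.sum_equiv (Equiv.addLeft a) (fun x => (a + x) ^ (q-1)) (fun x => x ^ (q-1))
    (by intro x; simp)]
  have h2 : ∀ x : ZMod q, x ^ (q - 1) = 1 - if x = 0 then 1 else 0 := by
    intro x
    by_cases hx : x = 0
    · have : q - 1 ≠ 0 := by have := hq.out.two_le; omega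
      simp [hx, this]
    · simp [hx, ZMod.pow_card_sub_one_eq_one hx]
  simp only [h2]
  simp

/-- weighted sum of a locally constant function along `s` -/
noncomputable def wsum (q : ℕ) {s : X → X} (hs : Continuous s) (c : ℕ → ZMod q)
    (f : LocallyConstant X (ZMod q)) : LocallyConstant X (ZMod q) :=
  ∑ i ∈ range q, LocallyConstant.const X (c i) * f.comap ⟨s^[i], hs.iterate i⟩

theorem wsum_apply {s : X → X} (hs : Continuous s) (c : ℕ → ZMod q)
    (f : LocallyConstant X (ZMod q)) (x : X) :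
    wsum q hs c f x = ∑ i ∈ range q, c i * f (s^[i] x) := by
  classical
  unfold wsum
  have : ∀ t : Finset ℕ, (∑ i ∈ t, LocallyConstant.const X (c i) *
      f.comap ⟨s^[i], hs.iterate i⟩ : LocallyConstant X (ZMod q)) x
      = ∑ i ∈ t, c i * f (s^[i] x) := by
    intro t
    induction t using Finset.induction_on with
    | empty => simp
    | insert a t ha ih => rw [sum_insert ha, sum_insert ha, LocallyConstant.add_apply, ih]; simp
  exact this _

theorem glue {W : Set X} (hW : IsClopen W) (f g : LocallyConstant X (ZMod q)) :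
    ∃ h : LocallyConstant X (ZMod q), (∀ x ∈ W, h x = f x) ∧ ∀ x ∉ W, h x = g x := by
  classical
  refine ⟨LocallyConstant.charFn (ZMod q) hW * f + (1 - LocallyConstant.charFn (ZMod q) hW) * g,
    fun x hx => ?_, fun x hx => ?_⟩
  · have e : ∀ y, (LocallyConstant.charFn (ZMod q) hW * f +
        (1 - LocallyConstant.charFn (ZMod q) hW) * g) y =
        Set.indicator W 1 y * f y + (1 - Set.indicator W 1 y) * g y := fun y => by
      rw [← LocallyConstant.coe_charFn]; rfl
    rw [e, Set.indicator_of_mem hx]; simp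
  · have e : ∀ y, (LocallyConstant.charFn (ZMod q) hW * f +
        (1 - LocallyConstant.charFn (ZMod q) hW) * g) y =
        Set.indicator W 1 y * f y + (1 - Set.indicator W 1 y) * g y := fun y => by
      rw [← LocallyConstant.coe_charFn]; rfl
    rw [e, Set.indicator_of_notMem hx]; simp

variable [CompactSpace X] [TotallySeparatedSpace X]

/-- a point `x` outside a finite set of points has a clopen neighbourhood avoiding them -/
theorem exists_clopen_avoid (x : X) (T : Finset X) (hx : x ∉ T) :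
    ∃ U : Set X, IsClopen U ∧ x ∈ U ∧ ∀ y ∈ T, y ∉ U := by
  classical
  have hO : IsOpen ((T : Set X)ᶜ) := T.finite_toSet.isClosed.isOpen_compl
  obtain ⟨U, hU, hxU, hUT⟩ := compact_exists_isClopen_in_isOpen hO (show x ∈ (T : Set X)ᶜ by simpa using hx)
  exact ⟨U, hU, hxU, fun y hy hyU => hUT hyU (by simpa using hy)⟩

omit [TopologicalSpace X] [CompactSpace X] [TotallySeparatedSpace X] in
theorem fixed_of_iter {s : X → X} (hsq : ∀ x, s^[q] x = x) {x : X} {i : ℕ} (hi0 : 0 < i)
    (hi : i < q) (h : s^[i] x = x) : s x = x := by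
  have h1 : Function.IsPeriodicPt s i x := h
  have h2 : Function.IsPeriodicPt s q x := hsq x
  have h3 := h1.gcd h2
  have h4 : Nat.gcd i q = 1 := by
    exact (Nat.coprime_of_lt_prime (by omega) hi hq.out).symm
  rw [h4] at h3
  exact h3

theorem exists_phase_local {s : X → X} (hs : Continuous s) (hsq : ∀ x, s^[q] x = x) (x : X)
    (hfix : s x ≠ x) : ∃ W : Set X, IsClopen W ∧ (∀ y, s y ∈ W ↔ y ∈ W) ∧ x ∈ W ∧
      ∃ φ : LocallyConstant X (ZMod q), ∀ y ∈ W, φ (s y) = φ y + 1 := by
  classical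
  have hq0 : 0 < q := hq.out.pos
  obtain ⟨U, hU, hxU, hUT⟩ := exists_clopen_avoid x ((Ico 1 q).image (fun i => s^[i] x)) (by
    simp only [mem_image, mem_Ico, not_exists, not_and]
    rintro i ⟨h1, h2⟩ h3
    exact hfix (fixed_of_iter hsq (by omega) h2 h3))
  have hUT' : ∀ i, 1 ≤ i → i < q → s^[i] x ∉ U := fun i h1 h2 =>
    hUT _ (mem_image_of_mem _ (mem_Ico.2 ⟨h1, h2⟩))
  set W0 : Set X := U ∩ ⋂ i ∈ Ico 1 q, (s^[i]) ⁻¹' Uᶜ with hW0
  have hW0c : IsClopen W0 := by
    refine hU.inter ?_
    exact isClopen_biInter_finset (fun i _ => hU.compl.preimage (hs.iterate i))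
  have hxW0 : x ∈ W0 := by
    refine ⟨hxU, ?_⟩
    simp only [Set.mem_iInter, Set.mem_preimage, Set.mem_compl_iff, mem_Ico, and_imp]
    exact hUT'
  have hW0d : ∀ y ∈ W0, ∀ i, 1 ≤ i → i < q → s^[i] y ∉ W0 := by
    rintro y ⟨_, hy⟩ i h1 h2 h3
    simp only [Set.mem_iInter, Set.mem_preimage, Set.mem_compl_iff, mem_Ico, and_imp] at hy
    exact hy i h1 h2 h3.1
  set W : Set X := ⋃ i ∈ range q, (s^[i]) ⁻¹' W0 with hWdef
  have hWc : IsClopen W := isClopen_biUnion_finset (fun i _ => hW0c.preimage (hs.iterate i))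
  have hmem : ∀ y, y ∈ W ↔ ∃ i < q, s^[i] y ∈ W0 := by
    intro y; simp [hWdef]
  have hiter : ∀ i y, s^[i] (s y) = s^[i+1] y := fun i y => (Function.iterate_succ_apply s i y).symm
  have hWs : ∀ y, s y ∈ W ↔ y ∈ W := by
    intro y
    rw [hmem, hmem]
    constructor
    · rintro ⟨i, hi, h⟩
      rw [hiter] at h
      by_cases hiq : i + 1 < q
      · exact ⟨i+1, hiq, h⟩
      · have : i + 1 = q := by omega
        rw [this, hsq] at h
        exact ⟨0, hq0, h⟩
    · rintro ⟨i, hi, h⟩
      rcases Nat.eq_zero_or_pos i with h0 | h0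
      · refine ⟨q - 1, by omega, ?_⟩
        rw [hiter, Nat.sub_add_cancel hq0, hsq]
        rw [h0] at h
        exact h
      · refine ⟨i - 1, by omega, ?_⟩
        rw [hiter, Nat.sub_add_cancel h0]
        exact h
  refine ⟨W, hWc, hWs, (hmem x).2 ⟨0, hq0, hxW0⟩, ?_⟩
  set χ : LocallyConstant X (ZMod q) := LocallyConstant.charFn (ZMod q) hW0c with hχ
  have hχ1 : ∀ y, χ y = if y ∈ W0 then 1 else 0 := by
    intro y
    simp only [hχ, LocallyConstant.coe_charFn, Set.indicator_apply, Pi.one_apply]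
  have hone : ∀ y ∈ W, ∑ i ∈ range q, χ (s^[i] y) = 1 := by
    intro y hy
    obtain ⟨i, hi, h⟩ := (hmem y).1 hy
    rw [Finset.sum_eq_single i]
    · rw [hχ1, if_pos h]
    · intro j hj hji
      rw [hχ1, if_neg]
      intro hj'
      have hjq : j < q := by simpa using hj
      rcases lt_or_gt_of_ne hji with h1 | h1
      · have := hW0d _ hj' (i - j) (by omega) (by omega)
        rw [← Function.iterate_add_apply, Nat.sub_add_cancel h1.le] at this
        exact this h
      · have := hW0d _ h (j - i) (by omega) (by omega)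
        rw [← Function.iterate_add_apply, Nat.sub_add_cancel h1.le] at this
        exact this hj'
    · intro h'; exact absurd (mem_range.2 hi) h'
  refine ⟨wsum q hs (fun k => -(k : ZMod q)) χ, fun y hy => ?_⟩
  rw [wsum_apply, wsum_apply]
  simp only [hiter]
  have e1 : ∀ k : ℕ, -(k : ZMod q) * χ (s^[k+1] y) =
      -((k+1 : ℕ) : ZMod q) * χ (s^[k+1] y) + χ (s^[k+1] y) := by
    intro k; push_cast; ring
  rw [Finset.sum_congr rfl (fun k _ => e1 k), Finset.sum_add_distrib]
  have h2 := Finset.sum_range_succ (fun k : ℕ => -((k : ℕ) : ZMod q) * χ (s^[k] y)) q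
  have h3 := Finset.sum_range_succ' (fun k : ℕ => -((k : ℕ) : ZMod q) * χ (s^[k] y)) q
  rw [h2] at h3
  simp only [ZMod.natCast_self, neg_zero, zero_mul, add_zero, Nat.cast_zero] at h3
  rw [← h3]
  congr 1
  have h4 := sum_iter (q := q) hsq (fun z => χ z) y
  simp only [hiter] at h4
  rw [h4]
  exact hone y hy

theorem exists_phase {s : X → X} (hs : Continuous s) (hsq : ∀ x, s^[q] x = x) (K : Set X)
    (hK : IsCompact K) (hfix : ∀ x ∈ K, s x ≠ x) :
    ∃ W : Set X, IsClopen W ∧ (∀ y, s y ∈ W ↔ y ∈ W) ∧ K ⊆ W ∧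
      ∃ φ : LocallyConstant X (ZMod q), ∀ y ∈ W, φ (s y) = φ y + 1 := by
  classical
  refine hK.induction_on (p := fun S => ∃ W : Set X, IsClopen W ∧ (∀ y, s y ∈ W ↔ y ∈ W) ∧ S ⊆ W ∧
      ∃ φ : LocallyConstant X (ZMod q), ∀ y ∈ W, φ (s y) = φ y + 1) ?_ ?_ ?_ ?_
  · exact ⟨∅, isClopen_empty, by simp, subset_rfl, 0, by simp⟩
  · rintro S T hST ⟨W, h1, h2, h3, h4⟩
    exact ⟨W, h1, h2, hST.trans h3, h4⟩
  · rintro S T ⟨W, h1, h2, h3, φ, h4⟩ ⟨W', h1', h2', h3', φ', h4'⟩
    obtain ⟨ψ, hψ1, hψ2⟩ := glue h1 φ φ'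
    refine ⟨W ∪ W', h1.union h1', fun y => by simp [h2, h2'], Set.union_subset_union h3 h3', ψ, ?_⟩
    intro y hy
    by_cases hyW : y ∈ W
    · rw [hψ1 _ ((h2 y).2 hyW), hψ1 _ hyW, h4 y hyW]
    · have hyW' : y ∈ W' := hy.resolve_left hyW
      rw [hψ2 _ (fun h => hyW ((h2 y).1 h)), hψ2 _ hyW, h4' y hyW']
  · intro x hx
    obtain ⟨W, h1, h2, h3, h4⟩ := exists_phase_local hs hsq x (hfix x hx)
    exact ⟨W, mem_nhdsWithin_of_mem_nhds (h1.isOpen.mem_nhds h3), W, h1, h2, subset_rfl, h4⟩

/-- an invariant function vanishing on the fixed points is a norm -/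
theorem exists_norm {s : X → X} (hs : Continuous s) (hsq : ∀ x, s^[q] x = x)
    (f : LocallyConstant X (ZMod q)) (hf : ∀ x, f (s x) = f x) (h0 : ∀ x, s x = x → f x = 0) :
    ∃ g : LocallyConstant X (ZMod q), ∀ x, ∑ i ∈ range q, g (s^[i] x) = f x := by
  classical
  have hKc : IsClopen (f ⁻¹' {0}ᶜ) := f.isLocallyConstant.isClopen_fiber 0 |>.compl
  obtain ⟨W, -, hWs, hKW, φ, hφ⟩ := exists_phase hs hsq (f ⁻¹' {0}ᶜ) hKc.isClosed.isCompact
    (fun x hx h => hx (h0 x h))
  refine ⟨- φ ^ (q - 1) * f, fun x => ?_⟩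
  have hfi : ∀ i, f (s^[i] x) = f x := by
    intro i
    induction i with
    | zero => rfl
    | succ i ih => rw [Function.iterate_succ_apply', hf, ih]
  by_cases hx : f x = 0
  · simp [hfi, hx]
  · have hxW : x ∈ W := hKW hx
    have hWi : ∀ i, s^[i] x ∈ W := by
      intro i
      induction i with
      | zero => exact hxW
      | succ i ih => rw [Function.iterate_succ_apply']; exact (hWs _).2 ih
    have hφi : ∀ i : ℕ, φ (s^[i] x) = φ x + i := by
      intro i
      induction i with
      | zero => simp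
      | succ i ih => rw [Function.iterate_succ_apply', hφ _ (hWi i), ih]; push_cast; ring
    have e : ∀ i ∈ range q, (- φ ^ (q - 1) * f : LocallyConstant X (ZMod q)) (s^[i] x) =
        -(f x) * (φ x + i) ^ (q - 1) := by
      intro i _
      have : (- φ ^ (q - 1) * f : LocallyConstant X (ZMod q)) (s^[i] x) =
        - (φ (s^[i] x)) ^ (q - 1) * f (s^[i] x) := rfl
      rw [this, hfi, hφi]; ring
    rw [Finset.sum_congr rfl e, ← Finset.mul_sum, sum_pow]
    ring

/-- invariant extension of a locally constant function from the fixed points -/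
theorem exists_inv_ext {s : X → X} (hs : Continuous s) (hsq : ∀ x, s^[q] x = x)
    (f : LocallyConstant {x // s x = x} (ZMod q)) :
    ∃ g : LocallyConstant X (ZMod q), (∀ x, g (s x) = g x) ∧ ∀ x : {x // s x = x}, g x = f x := by
  classical
  have hq0 : 0 < q := hq.out.pos
  have hiter : ∀ i y, s^[i] (s y) = s^[i+1] y := fun i y => (Function.iterate_succ_apply s i y).symm
  have hcl : IsClosed {x | s x = x} := isClosed_eq hs continuous_id
  have key : ∃ W : Set X, IsClopen W ∧ (∀ y, s y ∈ W ↔ y ∈ W) ∧ {x | s x = x} ⊆ W ∧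
      ∃ g : LocallyConstant X (ZMod q), (∀ x, g (s x) = g x) ∧
        ∀ x : {x // s x = x}, x.1 ∈ W → g x = f x := by
    refine hcl.isCompact.induction_on (p := fun S => ∃ W : Set X, IsClopen W ∧
      (∀ y, s y ∈ W ↔ y ∈ W) ∧ S ⊆ W ∧
      ∃ g : LocallyConstant X (ZMod q), (∀ x, g (s x) = g x) ∧
        ∀ x : {x // s x = x}, x.1 ∈ W → g x = f x) ?_ ?_ ?_ ?_
    · exact ⟨∅, isClopen_empty, by simp, subset_rfl, 0, by simp⟩
    · rintro S T hST ⟨W, h1, h2, h3, h4⟩
      exact ⟨W, h1, h2, hST.trans h3, h4⟩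
    · rintro S T ⟨W, h1, h2, h3, φ, h4, h5⟩ ⟨W', h1', h2', h3', φ', h4', h5'⟩
      obtain ⟨ψ, hψ1, hψ2⟩ := glue h1 φ φ'
      refine ⟨W ∪ W', h1.union h1', fun y => by simp [h2, h2'], Set.union_subset_union h3 h3',
        ψ, ?_, ?_⟩
      · intro y
        by_cases hyW : y ∈ W
        · rw [hψ1 _ ((h2 y).2 hyW), hψ1 _ hyW, h4 y]
        · rw [hψ2 _ (fun h => hyW ((h2 y).1 h)), hψ2 _ hyW, h4' y]
      · intro x hx
        by_cases hyW : x.1 ∈ W
        · rw [hψ1 _ hyW, h5 x hyW]
        · rw [hψ2 _ hyW, h5' x (hx.resolve_left hyW)]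
    · intro x hx
      have hx' : s x = x := hx
      -- neighbourhood of `x` in the fixed set on which `f` is constant
      have hnb : {y : {x // s x = x} | f y = f ⟨x, hx'⟩} ∈ nhds (⟨x, hx'⟩ : {x // s x = x}) :=
        (f.isLocallyConstant.isOpen_fiber _).mem_nhds rfl
      rw [nhds_subtype_eq_comap, Filter.mem_comap] at hnb
      obtain ⟨t, ht, htf⟩ := hnb
      obtain ⟨O, hOt, hO, hxO⟩ := mem_nhds_iff.1 ht
      obtain ⟨U, hU, hxU, hUO⟩ := compact_exists_isClopen_in_isOpen hO hxO
      have hxi : ∀ i, s^[i] x = x := by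
        intro i
        induction i with
        | zero => rfl
        | succ i ih => rw [Function.iterate_succ_apply', ih, hx']
      set W : Set X := ⋂ i ∈ range q, (s^[i]) ⁻¹' U with hWdef
      have hWc : IsClopen W := isClopen_biInter_finset (fun i _ => hU.preimage (hs.iterate i))
      have hmem : ∀ y, y ∈ W ↔ ∀ i < q, s^[i] y ∈ U := by
        intro y; simp [hWdef]
      have hWs : ∀ y, s y ∈ W ↔ y ∈ W := by
        intro y
        rw [hmem, hmem]
        constructor
        · intro h i hi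
          rcases Nat.eq_zero_or_pos i with h0 | h0
          · have := h (q - 1) (by omega)
            rw [hiter, Nat.sub_add_cancel hq0, hsq] at this
            rw [h0]; exact this
          · have := h (i - 1) (by omega)
            rwa [hiter, Nat.sub_add_cancel h0] at this
        · intro h i hi
          rw [hiter]
          by_cases hiq : i + 1 < q
          · exact h _ hiq
          · have : i + 1 = q := by omega
            rw [this, hsq]
            exact h 0 hq0
      refine ⟨W, mem_nhdsWithin_of_mem_nhds (hWc.isOpen.mem_nhds ((hmem x).2 fun i _ => by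
        rw [hxi]; exact hxU)), W, hWc, hWs, subset_rfl,
        LocallyConstant.const X (f ⟨x, hx'⟩), fun _ => rfl, ?_⟩
      intro y hy
      have : y ∈ {y : {x // s x = x} | f y = f ⟨x, hx'⟩} :=
        htf (hOt (hUO ((hmem y.1).1 hy 0 hq0)))
      exact this.symm
  obtain ⟨W, -, -, h3, g, h4, h5⟩ := key
  exact ⟨g, h4, fun x => h5 x (h3 x.2)⟩

/-- extension of a locally constant function from the fixed points (no invariance needed) -/
theorem nrm_inv {s : X → X} (hs : Continuous s) (hsq : ∀ x, s^[q] x = x)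
    (f : LocallyConstant X (ZMod q)) (x : X) : nrm q hs f (s x) = nrm q hs f x := by
  rw [nrm_apply, nrm_apply]
  exact sum_iter hsq f x

end one

section step

set_option linter.unusedSectionVars false

variable {q : ℕ} [hq : Fact q.Prime] {V D E : Type*}
  [TopologicalSpace V] [CompactSpace V] [TotallySeparatedSpace V]
  [TopologicalSpace D] [CompactSpace D] [TotallySeparatedSpace D]
  [TopologicalSpace E] [CompactSpace E] [TotallySeparatedSpace E]

/-- the map induced on fixed points of self-maps -/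
def fixFun {V E : Type*} {sV : V → V} {sE : E → E} (v : E → V) (hv : ∀ e, v (sE e) = sV (v e)) :
    {e // sE e = e} → {x // sV x = x} :=
  fun e => ⟨v e.1, by rw [← hv, e.2]⟩

theorem smith_step {v : E → V} {d : E → D} (hvc : Continuous v) (hdc : Continuous d)
    (hex : GraphExact q v d) {sV : V → V} {sD : D → D} {sE : E → E}
    (hsV : Continuous sV) (hsD : Continuous sD) (hsE : Continuous sE)
    (hqV : ∀ x, sV^[q] x = x) (hqD : ∀ x, sD^[q] x = x) (hqE : ∀ x, sE^[q] x = x)
    (hv : ∀ e, v (sE e) = sV (v e)) (hd : ∀ e, d (sE e) = sD (d e)) :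
    GraphExact q (fixFun v hv) (fixFun d hd) := by
  classical
  have hitv : ∀ i e, v (sE^[i] e) = sV^[i] (v e) := by
    intro i e
    induction i with
    | zero => rfl
    | succ i ih => rw [Function.iterate_succ_apply', Function.iterate_succ_apply', hv, ih]
  have hitd : ∀ i e, d (sE^[i] e) = sD^[i] (d e) := by
    intro i e
    induction i with
    | zero => rfl
    | succ i ih => rw [Function.iterate_succ_apply', Function.iterate_succ_apply', hd, ih]
  refine ⟨?_, ?_, ?_⟩
  · by_contra hne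
    rw [not_or, not_nonempty_iff, not_nonempty_iff] at hne
    obtain ⟨hVe, hDe⟩ := hne
    have fV : ∀ x, sV x ≠ x := fun x h => hVe.false ⟨x, h⟩
    have fD : ∀ x, sD x ≠ x := fun x h => hDe.false ⟨x, h⟩
    have fE : ∀ e, sE e ≠ e := fun e h => fV (v e) (by rw [← hv, h])
    obtain ⟨W1, -, -, hW1, φ, hφ⟩ := exists_phase hsV hqV Set.univ isCompact_univ (fun x _ => fV x)
    obtain ⟨W2, -, -, hW2, ψ, hψ⟩ := exists_phase hsD hqD Set.univ isCompact_univ (fun x _ => fD x)
    have hφ' : ∀ x, φ (sV x) = φ x + 1 := fun x => hφ x (hW1 trivial)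
    have hψ' : ∀ x, ψ (sD x) = ψ x + 1 := fun x => hψ x (hW2 trivial)
    let γ : LocallyConstant E (ZMod q) := φ.comap ⟨v, hvc⟩ - ψ.comap ⟨d, hdc⟩
    have hγ : ∀ e, γ e = φ (v e) - ψ (d e) := fun e => rfl
    obtain ⟨δ, hδ⟩ := exists_norm hsE hqE γ (fun e => by rw [hγ, hγ, hv, hd, hφ', hψ']; ring)
      (fun e h => absurd h (fE e))
    obtain ⟨α, β, hαβ⟩ := hex.surj δ
    obtain ⟨c, hc1, hc2⟩ := hex.const (nrm q hsV α - φ) (nrm q hsD β - ψ) (fun e => by
      have e1 : (nrm q hsV α - φ) (v e) = nrm q hsV α (v e) - φ (v e) := rfl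
      have e2 : (nrm q hsD β - ψ) (d e) = nrm q hsD β (d e) - ψ (d e) := rfl
      rw [e1, e2, nrm_apply, nrm_apply]
      have e3 := hδ e
      rw [hγ] at e3
      simp only [hαβ, hitv, hitd, Finset.sum_sub_distrib] at e3
      linear_combination e3)
    rcases hex.nonempty with ⟨⟨x⟩⟩ | ⟨⟨x⟩⟩
    · have e1 : nrm q hsV α (sV x) - φ (sV x) = c := hc1 (sV x)
      have e2 : nrm q hsV α x - φ x = c := hc1 x
      rw [nrm_inv hsV hqV, hφ'] at e1
      have : (1 : ZMod q) = 0 := by linear_combination e2 - e1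
      exact one_ne_zero this
    · have e1 : nrm q hsD β (sD x) - ψ (sD x) = c := hc2 (sD x)
      have e2 : nrm q hsD β x - ψ x = c := hc2 x
      rw [nrm_inv hsD hqD, hψ'] at e1
      have : (1 : ZMod q) = 0 := by linear_combination e2 - e1
      exact one_ne_zero this
  · intro γ
    obtain ⟨γ', -, hγ'⟩ := exists_inv_ext hsE hqE γ
    obtain ⟨α, β, hαβ⟩ := hex.surj γ'
    refine ⟨α.comap ⟨Subtype.val, continuous_subtype_val⟩,
      β.comap ⟨Subtype.val, continuous_subtype_val⟩, fun e => ?_⟩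
    rw [← hγ', hαβ]
    rfl
  · intro α β hαβ
    obtain ⟨α', hα'i, hα'⟩ := exists_inv_ext hsV hqV α
    obtain ⟨β', hβ'i, hβ'⟩ := exists_inv_ext hsD hqD β
    let γ : LocallyConstant E (ZMod q) := α'.comap ⟨v, hvc⟩ - β'.comap ⟨d, hdc⟩
    have hγ : ∀ e, γ e = α' (v e) - β' (d e) := fun e => rfl
    obtain ⟨δ, hδ⟩ := exists_norm hsE hqE γ (fun e => by rw [hγ, hγ, hv, hd, hα'i, hβ'i])
      (fun e h => by
        have e1 := hα' (fixFun v hv ⟨e, h⟩)
        have e2 := hβ' (fixFun d hd ⟨e, h⟩)
        have e3 := hαβ ⟨e, h⟩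
        rw [← e1, ← e2] at e3
        rw [hγ]
        exact sub_eq_zero.2 e3)
    obtain ⟨a, b, hab⟩ := hex.surj δ
    obtain ⟨c, hc1, hc2⟩ := hex.const (α' - nrm q hsV a) (β' - nrm q hsD b) (fun e => by
      have e1 : (α' - nrm q hsV a) (v e) = α' (v e) - nrm q hsV a (v e) := rfl
      have e2 : (β' - nrm q hsD b) (d e) = β' (d e) - nrm q hsD b (d e) := rfl
      rw [e1, e2, nrm_apply, nrm_apply]
      have e3 := hδ e
      rw [hγ] at e3
      simp only [hab, hitv, hitd, Finset.sum_sub_distrib] at e3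
      linear_combination -e3)
    refine ⟨c, fun x => ?_, fun x => ?_⟩
    · have e1 : α' x.1 - nrm q hsV a x.1 = c := hc1 x.1
      have hx : ∀ i, sV^[i] x.1 = x.1 := by
        intro i
        induction i with
        | zero => rfl
        | succ i ih => rw [Function.iterate_succ_apply', ih, x.2]
      rw [nrm_apply] at e1
      simp only [hx, Finset.sum_const, card_range, nsmul_eq_mul, ZMod.natCast_self, zero_mul,
        sub_zero] at e1
      rw [← hα', e1]
    · have e1 : β' x.1 - nrm q hsD b x.1 = c := hc2 x.1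
      have hx : ∀ i, sD^[i] x.1 = x.1 := by
        intro i
        induction i with
        | zero => rfl
        | succ i ih => rw [Function.iterate_succ_apply', ih, x.2]
      rw [nrm_apply] at e1
      simp only [hx, Finset.sum_const, card_range, nsmul_eq_mul, ZMod.natCast_self, zero_mul,
        sub_zero] at e1
      rw [← hβ', e1]

end step

/-- exactness is invariant under homeomorphisms -/
theorem GraphExact.transfer {q : ℕ} {V D E : Type*}
    [TopologicalSpace V] [TopologicalSpace D] [TopologicalSpace E]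
    {v : E → V} {d : E → D} {V' D' E' : Type*}
    [TopologicalSpace V'] [TopologicalSpace D'] [TopologicalSpace E'] {v' : E' → V'} {d' : E' → D'}
    (hex : GraphExact q v d) (fV : V ≃ₜ V') (fD : D ≃ₜ D') (fE : E ≃ₜ E')
    (hv : ∀ e, v' (fE e) = fV (v e)) (hd : ∀ e, d' (fE e) = fD (d e)) : GraphExact q v' d' := by
  refine ⟨?_, ?_, ?_⟩
  · rcases hex.nonempty with ⟨⟨x⟩⟩ | ⟨⟨x⟩⟩
    · exact Or.inl ⟨fV x⟩
    · exact Or.inr ⟨fD x⟩
  · intro γ
    obtain ⟨α, β, h⟩ := hex.surj (γ.comap ⟨fE, fE.continuous⟩)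
    refine ⟨α.comap ⟨fV.symm, fV.symm.continuous⟩, β.comap ⟨fD.symm, fD.symm.continuous⟩,
      fun e => ?_⟩
    have h1 := h (fE.symm e)
    have e1 : (γ.comap ⟨fE, fE.continuous⟩) (fE.symm e) = γ e := by
      simp [LocallyConstant.coe_comap]
    have hv' : fV.symm (v' e) = v (fE.symm e) := by
      rw [Homeomorph.symm_apply_eq, ← hv, Homeomorph.apply_symm_apply]
    have hd' : fD.symm (d' e) = d (fE.symm e) := by
      rw [Homeomorph.symm_apply_eq, ← hd, Homeomorph.apply_symm_apply]
    rw [e1] at h1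
    rw [h1]
    simp [LocallyConstant.coe_comap, hv', hd']
  · intro α β h
    obtain ⟨c, h1, h2⟩ := hex.const (α.comap ⟨fV, fV.continuous⟩) (β.comap ⟨fD, fD.continuous⟩)
      (fun e => by
        have := h (fE e)
        rw [hv, hd] at this
        simpa [LocallyConstant.coe_comap] using this)
    refine ⟨c, fun x => ?_, fun x => ?_⟩
    · have := h1 (fV.symm x)
      simpa [LocallyConstant.coe_comap] using this
    · have := h2 (fD.symm x)
      simpa [LocallyConstant.coe_comap] using this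

end P025H505
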